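import Vale.Agent.P212.OpKit1
import Vale.Agent.P212.Milnor
import Vale.Agent.P089.AbsIndex
import Vale.Agent.P089.Model

/-! TASK Pairing: the index pairing of a Fredholm module with an idempotent matrix, built on the
abstract index theory of `Vale/Agent/P089/AbsDefs.lean`, `AbsIndex.lean` (`Ctx`, `Fred`, `Ind`,
`Fred.exists_ind`, `Fred.ind_unique`, `Fred.ind_normal`, `Ind.equiv`, `Ind.sum`, `Wit.ind`).
Plan. `ctxH`: copy the proof of `Vale.Agent.P089.ctx` in `Model.lean` (`Model.compact_mem`,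
`Model.Fac`, `Model.isUnit_of_small`; a rank one operator `a.comp f` is `p * (ε * q)` with
`ε = rankOne ξ₀ ξ₀`).
`fred_pair`: `P₀ = pairMat z p γ`, `P₁ = pairMat z p (-γ)`, `T = P₁ F P₀`, `T' = P₀ F P₁`; apply the
computation of `GradRel.parametrix` in the matrix ring (with `P = p.map π`, `G = diagonal γ`,
`F = diagonal F`, and the ideal of matrices with compact entries, `TwoSidedIdeal.matrix`), or by hand.
Unitary and sum: `Ind.equiv` with `X₀ = u P₀`, `Y₀ = P₀ u*`, resp. (after `Ind.sum`)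
`X₀ = fromCols (s₁ P₀ˣ) (s₂ P₀ʸ)`, `Y₀ = fromRows (P₀ˣ s₁*) (P₀ʸ s₂*)`, using `s₁* s₂ = 0` and
`z.π f = s₁ x.π f s₁* + s₂ y.π f s₂*` (the same for `γ`, `F`).
Homotopy: `s ↦ pair` is locally constant: with `W, W'` from `ind_normal` at `s₀`,
`Δ = fromBlocks (T s - T s₀) 0 0 0`, `u = 1 + W' Δ` is a unit for `s` near `s₀`
(`Model.isUnit_of_small`), `W + Δ = W u`, and `u⁻¹ W'` is the new inverse (`u` commutes with
`W' W`). Use `IsLocallyConstant.apply_eq_of_preconnectedSpace`.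
`HasFactor.pair_eq`: `Ind (one11 E₀) (one11 E₁) (one11 S) (0 - [1_D])` is witnessed by
`W = (S, rankOne (η i) ξ₀)` and `W' = W*` (`Wit.ind` with index types `Empty` and `Fin D`). Then
`Ind.equiv` with `X₀ = column v₀`, `Y₀ = row w₀`, `X₁ = column v₁`, `Y₁ = row w₁`:
`v₁ S w₀ ≡ v₁ w₁ F v₀ w₀ = P₁ F P₀`. The trace of `0 - [1_D]` is `-D`. -/

noncomputable section

open InnerProductSpace

namespace Vale.Agent.P212

variable {H H' : Type} [NormedAddCommGroup H] [InnerProductSpace ℂ H] [CompleteSpace H]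
  [NormedAddCommGroup H'] [InnerProductSpace ℂ H'] [CompleteSpace H']
  {A A' : Type} [NonUnitalRing A] [StarRing A] [Module ℂ A] [NonUnitalRing A'] [StarRing A']
  [Module ℂ A'] {I : Type} [Fintype I] [DecidableEq I]

omit [CompleteSpace H] in
theorem rankOne_mul_prg (a b c d : H) :
    (rankOne ℂ a b : Op H H) * rankOne ℂ c d = inner ℂ b c • rankOne ℂ a d :=
  rankOne_comp_rankOne a b c d

omit [CompleteSpace H] in
theorem inner_self_prg {ξ₀ : H} (h : ‖ξ₀‖ = 1) : inner ℂ ξ₀ ξ₀ = 1 := by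
  rw [inner_self_eq_norm_sq_to_K, h]
  simp

omit [CompleteSpace H] in
theorem rankOne_mem_prg (a b : H) : (rankOne ℂ a b : Op H H) ∈ compacts H :=
  (isCompactOperator_of_locallyCompactSpace_dom (innerSL ℂ b)).clm_comp
    (ContinuousLinearMap.toSpanSingleton ℂ a)

/-- The corner `ℂ → B(H)`, `c ↦ c • |ξ₀⟩⟨ξ₀|`. -/
def cornerH (ξ₀ : H) (h : ‖ξ₀‖ = 1) : ℂ →ₙ+* Op H H where
  toFun c := c • rankOne ℂ ξ₀ ξ₀
  map_mul' a b := by
    rw [smul_mul_smul_comm, rankOne_mul_prg, inner_self_prg h, one_smul]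
  map_zero' := zero_smul _ _
  map_add' a b := add_smul a b _

omit [CompleteSpace H] in
theorem cornerH_apply_prg (ξ₀ : H) (h : ‖ξ₀‖ = 1) (c : ℂ) :
    cornerH ξ₀ h c = c • rankOne ℂ ξ₀ ξ₀ := rfl

omit [CompleteSpace H] in
theorem exists_fac_prg (ξ₀ : H) (h : ‖ξ₀‖ = 1) {ι : Type} [DecidableEq ι] (a b : ι) {x : Op H H}
    (hx : x ∈ compacts H) {δ : ℝ} (hδ : 0 < δ) :
    ∃ y : Op H H, ‖y - x‖ ≤ δ ∧ P089.Model.Fac (cornerH ξ₀ h 1) (Matrix.single a b y) := by
  obtain ⟨y, hy, hd⟩ := Metric.mem_closure_iff.1 (P089.Model.compact_mem hx) δ hδ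
  have : P089.Model.Fac (cornerH ξ₀ h 1) (Matrix.single a b y) := by
    clear hd
    induction hy using Submodule.span_induction with
    | mem x hx =>
      obtain ⟨u, f, rfl⟩ := hx
      have e : u.comp f = (u.comp (innerSL ℂ ξ₀)) * (cornerH ξ₀ h 1 *
          (ContinuousLinearMap.toSpanSingleton ℂ ξ₀).comp f) := by
        refine ContinuousLinearMap.ext fun v => ?_
        change u (f v) = u (inner ℂ ξ₀ ((1 : ℂ) • (inner ℂ ξ₀ (f v • ξ₀) • ξ₀)))
        simp only [inner_smul_right, inner_self_prg h, one_smul, mul_one]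
      rw [e]
      exact P089.Model.Fac.single _ _ _ a b
    | zero => rw [Matrix.single_zero]; exact P089.Model.Fac.zero _
    | add x y _ _ hx hy => rw [Matrix.single_add]; exact hx.add hy
    | smul c x _ hx => rw [← Matrix.smul_single]; exact hx.smul c
  refine ⟨y, ?_, this⟩
  rw [dist_comm, dist_eq_norm] at hd
  exact hd.le

/-- The index context of `B(H)`. -/
def ctxH (ξ₀ : H) (h : ‖ξ₀‖ = 1) : P089.Ctx (Op H H) ℂ where
  J := cptIdeal H
  j := cornerH ξ₀ h
  j_inj := by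
    intro a b hab
    have := congrArg (fun x : Op H H => inner ℂ ξ₀ (x ξ₀)) hab
    simpa [cornerH_apply_prg, inner_smul_right, inner_self_prg h, h] using this
  j_range := by
    intro b
    refine ⟨inner ℂ ξ₀ (b ξ₀), ContinuousLinearMap.ext fun v => ?_⟩
    change inner ℂ ξ₀ (b ξ₀) • (inner ℂ ξ₀ v • ξ₀) =
      (1 : ℂ) • (inner ℂ ξ₀ (b ((1 : ℂ) • (inner ℂ ξ₀ v • ξ₀))) • ξ₀)
    rw [one_smul, one_smul, map_smul, inner_smul_right, smul_smul, mul_comm]
  eps_mem := mem_cptIdeal.2 (compacts_smul _ (rankOne_mem_prg _ _))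
  approx := by
    intro I _ _ x hx
    choose y hy hf using fun a b => exists_fac_prg ξ₀ h a b (mem_cptIdeal.1 (hx a b))
      (δ := 1 / (Fintype.card I + 1)) (by positivity)
    have hF : P089.Model.Fac (cornerH ξ₀ h 1) (Matrix.of y) := by
      rw [Matrix.matrix_eq_sum_single (Matrix.of y)]
      exact Finset.sum_induction _ _ (fun _ _ => P089.Model.Fac.add) (P089.Model.Fac.zero _)
        fun a _ => Finset.sum_induction _ _ (fun _ _ => P089.Model.Fac.add)
          (P089.Model.Fac.zero _) fun b _ => hf a b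
    obtain ⟨n, A, C, hAC⟩ := hF
    refine ⟨n, Matrix.of A, Matrix.of fun k b => C b k, ?_⟩
    have e : (Matrix.of A * ((Matrix.diagonal (fun _ => cornerH ξ₀ h 1) :
        Matrix (Fin n) (Fin n) (Op H H)) * (Matrix.of fun k b => C b k) :
        Matrix (Fin n) I (Op H H))) = Matrix.of y := by
      ext1 a b
      rw [hAC, Matrix.mul_apply]
      simp only [Matrix.diagonal_mul, Matrix.of_apply]
    rw [e, add_sub_assoc, ← sub_neg_eq_add, neg_sub]
    exact P089.Model.isUnit_of_small _ hy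

/-- The rank `K₀(ℂ) → ℂ`. -/
def trC : P089.K0 ℂ →+ ℂ := P089.K0.tr (AddMonoidHom.id ℂ) mul_comm

/-- The matrix `π(p) (1 + G) / 2`. -/
def pairMat (z : FMod A (compacts H)) (p : Matrix I I A) (G : Op H H) : Matrix I I (Op H H) :=
  Matrix.of fun a b => evenPart (z.π (p a b)) G

/-- The operator `P₋ F P₊`. -/
def pairOp (z : FMod A (compacts H)) (p : Matrix I I A) : Matrix I I (Op H H) :=
  pairMat z p (-z.γ) * Matrix.diagonal (fun _ => z.F) * pairMat z p z.γ

/-- `d` is the index pairing of `z` and `p`. -/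
def IsPair (ξ₀ : H) (h : ‖ξ₀‖ = 1) (z : FMod A (compacts H)) (p : Matrix I I A) (d : ℂ) : Prop :=
  ∃ x, (ctxH ξ₀ h).Ind (pairMat z p z.γ) (pairMat z p (-z.γ)) (pairOp z p) x ∧ trC x = d

open Classical in
/-- The index pairing. -/
def pair (ξ₀ : H) (h : ‖ξ₀‖ = 1) (z : FMod A (compacts H)) (p : Matrix I I A) : ℂ :=
  if hd : ∃ d, IsPair ξ₀ h z p d then hd.choose else 0

theorem pairMat_eq_prg (z : FMod A (compacts H)) (p : Matrix I I A) (G : Op H H) :
    pairMat z p G = evenPart (p.map z.π) (Matrix.diagonal fun _ => G) := by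
  have e : ((2⁻¹ : ℂ) • (1 + Matrix.diagonal fun _ : I => G)) =
      Matrix.diagonal fun _ : I => (2⁻¹ : ℂ) • (1 + G) := by
    rw [← Matrix.diagonal_one, Matrix.diagonal_add, ← Matrix.diagonal_smul]
    rfl
  refine Matrix.ext fun a b => ?_
  rw [evenPart, e, Matrix.mul_diagonal]
  rfl

theorem gradRel_prg (z : FMod A (compacts H)) {p : Matrix I I A} (hp : p * p = p) :
    GradRel (p.map z.π) (Matrix.diagonal fun _ => z.γ) (Matrix.diagonal fun _ => z.F) := by
  refine ⟨by rw [← Matrix.map_mul, hp], ?_, Matrix.ext fun a b => ?_, ?_⟩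
  · rw [Matrix.diagonal_mul_diagonal, ← Matrix.diagonal_one]
    exact congrArg _ (funext fun _ => z.fredholm.grading_sq)
  · rw [Matrix.diagonal_mul, Matrix.mul_diagonal]
    exact z.fredholm.even_π _
  · rw [Matrix.diagonal_mul_diagonal, Matrix.diagonal_mul_diagonal, Matrix.diagonal_neg]
    exact congrArg _ (funext fun _ => z.fredholm.odd_F)

variable (ξ₀ : H) (h : ‖ξ₀‖ = 1)

theorem fred_pair (z : FMod A (compacts H)) {p : Matrix I I A} (hp : p * p = p) :
    (ctxH ξ₀ h).Fred (pairMat z p z.γ) (pairMat z p (-z.γ)) (pairOp z p)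
      (pairMat z p z.γ * Matrix.diagonal (fun _ => z.F) * pairMat z p (-z.γ)) := by
  have hg := gradRel_prg z hp
  have hm := hg.milnorRel
  have hc := hg.parametrix (TwoSidedIdeal.matrix I (cptIdeal H)) ?_ ?_
  · unfold pairOp
    rw [pairMat_eq_prg, pairMat_eq_prg, ← Matrix.diagonal_neg]
    exact ⟨hm.pp, hm.qq, hm.qt, hm.tp, hm.pt', hm.t'q,
      fun a b => (TwoSidedIdeal.mem_matrix _ _ _).1 hc.1 a b,
      fun a b => (TwoSidedIdeal.mem_matrix _ _ _).1 hc.2 a b⟩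
  · refine (TwoSidedIdeal.mem_matrix _ _ _).2 fun a b => ?_
    rw [Matrix.sub_apply, Matrix.diagonal_mul, Matrix.mul_diagonal]
    exact mem_cptIdeal.2 (z.fredholm.comm_F _)
  · refine (TwoSidedIdeal.mem_matrix _ _ _).2 fun a b => ?_
    rw [Matrix.diagonal_mul_diagonal, ← Matrix.diagonal_one, Matrix.diagonal_sub,
      Matrix.mul_diagonal]
    exact mem_cptIdeal.2 (z.fredholm.sq_F _)

theorem isPair_pair (z : FMod A (compacts H)) {p : Matrix I I A} (hp : p * p = p) :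
    IsPair ξ₀ h z p (pair ξ₀ h z p) := by
  have hd : ∃ d, IsPair ξ₀ h z p d := by
    obtain ⟨x, hx⟩ := (fred_pair ξ₀ h z hp).exists_ind
    exact ⟨_, x, hx, rfl⟩
  rw [pair, dif_pos hd]
  exact hd.choose_spec

theorem IsPair.pair_eq {z : FMod A (compacts H)} {p : Matrix I I A} (hp : p * p = p) {d : ℂ}
    (hd : IsPair ξ₀ h z p d) : pair ξ₀ h z p = d := by
  obtain ⟨x, hx, e⟩ := hd
  obtain ⟨y, hy, e'⟩ := isPair_pair ξ₀ h z hp
  rw [← e, ← e', (fred_pair ξ₀ h z hp).ind_unique hx hy]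

theorem pair_comap (φ : StarHom A A') (z : FMod A' (compacts H)) (p : Matrix I I A) :
    pair ξ₀ h (z.comap φ) p = pair ξ₀ h z (p.map φ) := rfl

theorem ind_conj_prg {B R ι ι' : Type} [Ring B] [Ring R] [Fintype ι] [DecidableEq ι] [Fintype ι']
    [DecidableEq ι'] {κ : P089.Ctx B R} {P₀ P₁ T : Matrix ι ι B} {Q₀ Q₁ T' : Matrix ι' ι' B}
    (S : Matrix ι' ι B) (S' : Matrix ι ι' B) (h1 : S' * S = 1) (h2 : S * S' = 1)
    (a0 : P₀ * P₀ = P₀) (a1 : P₁ * P₁ = P₁) (a2 : P₁ * T = T) (a3 : T * P₀ = T)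
    (b0 : Q₀ * S = S * P₀) (b1 : Q₁ * S = S * P₁) (b2 : T' * S = S * T) {x : P089.K0 R}
    (hx : κ.Ind P₀ P₁ T x) : κ.Ind Q₀ Q₁ T' x := by
  have key : ∀ {P : Matrix ι ι B} {Q : Matrix ι' ι' B}, Q * S = S * P → S * P * S' = Q :=
    fun e => by rw [← e, Matrix.mul_assoc, h2, Matrix.mul_one]
  have k1 : ∀ {P : Matrix ι ι B}, P * P = P → P * S' * (S * P) = P := fun e => by
    rw [Matrix.mul_assoc, ← Matrix.mul_assoc S', h1, Matrix.one_mul, e]
  have k2 : ∀ {P : Matrix ι ι B} {Q : Matrix ι' ι' B}, P * P = P → Q * S = S * P →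
      S * P * (P * S') = Q := fun e e' => by
    rw [← Matrix.mul_assoc, Matrix.mul_assoc S, e, key e']
  have k3 : ∀ {P : Matrix ι ι B} {Q : Matrix ι' ι' B}, P * P = P → Q * S = S * P →
      Q * Q = Q := fun {P Q} e e' => by
    calc Q * Q = Q * (S * P * S') := by rw [key e']
      _ = S * (P * P) * S' := by rw [← Matrix.mul_assoc, ← Matrix.mul_assoc, e', Matrix.mul_assoc S]
      _ = Q := by rw [e, key e']
  refine P089.Ctx.Ind.equiv (S * P₀) (S * P₁) (P₀ * S') (P₁ * S') a0 a1 (k3 a0 b0) (k3 a1 b1)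
    (k1 a0) (k2 a0 b0) (k1 a1) (k2 a1 b1) (P089.Ctx.Near.of_eq ?_) hx
  rw [Matrix.mul_assoc S, a2, ← Matrix.mul_assoc, Matrix.mul_assoc S, a3, key b2]

theorem pairMat_int_prg {x z : FMod A (compacts H)} {s : Op H H} (hs : Intertwines s x z)
    (p : Matrix I I A) {G G' : Op H H} (hG : G' * s = s * G) :
    pairMat z p G' * Matrix.diagonal (fun _ => s) = Matrix.diagonal (fun _ => s) * pairMat x p G := by
  refine Matrix.ext fun a b => ?_
  rw [Matrix.diagonal_mul, Matrix.mul_diagonal]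
  change z.π (p a b) * ((2⁻¹ : ℂ) • (1 + G')) * s = s * (x.π (p a b) * ((2⁻¹ : ℂ) • (1 + G)))
  rw [← mul_assoc, ← hs.rep, mul_assoc, mul_assoc, smul_mul_assoc, mul_smul_comm _ s, add_mul,
    mul_add, one_mul, mul_one, hG]

theorem pair_int_prg {x z : FMod A (compacts H)} {s : Op H H} (hs : Intertwines s x z)
    (p : Matrix I I A) :
    pairMat z p z.γ * Matrix.diagonal (fun _ => s) =
        Matrix.diagonal (fun _ => s) * pairMat x p x.γ ∧
      pairMat z p (-z.γ) * Matrix.diagonal (fun _ => s) =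
        Matrix.diagonal (fun _ => s) * pairMat x p (-x.γ) ∧
      pairOp z p * Matrix.diagonal (fun _ => s) = Matrix.diagonal (fun _ => s) * pairOp x p := by
  have h0 := pairMat_int_prg hs p hs.grading
  have h1 := pairMat_int_prg hs p (G := -x.γ) (G' := -z.γ) (by rw [neg_mul, mul_neg, hs.grading])
  refine ⟨h0, h1, ?_⟩
  have h2 : Matrix.diagonal (fun _ : I => z.F) * Matrix.diagonal (fun _ => s) =
      Matrix.diagonal (fun _ => s) * Matrix.diagonal (fun _ : I => x.F) := by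
    rw [Matrix.diagonal_mul_diagonal, Matrix.diagonal_mul_diagonal]
    exact congrArg _ (funext fun _ => hs.op)
  unfold pairOp
  rw [mul_assoc, h0, ← mul_assoc, mul_assoc (pairMat _ _ _), h2, ← mul_assoc, h1]
  simp only [mul_assoc]

theorem diag_mul_prg {B : Type} [Ring B] {s t u : B} (e : s * t = u) :
    Matrix.diagonal (fun _ : I => s) * Matrix.diagonal (fun _ => t) =
      Matrix.diagonal fun _ => u := by
  rw [Matrix.diagonal_mul_diagonal]
  exact congrArg _ (funext fun _ => e)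

theorem pair_unitary {x z : FMod A (compacts H)} (hu : FMod.Unitary x z) {p : Matrix I I A}
    (hp : p * p = p) : pair ξ₀ h x p = pair ξ₀ h z p := by
  obtain ⟨u, h1, h2, hu⟩ := hu
  obtain ⟨y, hy, e⟩ := isPair_pair ξ₀ h x hp
  have hf := fred_pair ξ₀ h x hp
  obtain ⟨b0, b1, b2⟩ := pair_int_prg hu p
  exact (IsPair.pair_eq ξ₀ h hp ⟨y, ind_conj_prg _ (Matrix.diagonal fun _ => star u)
    (diag_mul_prg h1) (diag_mul_prg h2) hf.idem₀ hf.idem₁ hf.left hf.right b0 b1 b2 hy, e⟩).symm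

theorem pair_sum {z x y : FMod A (compacts H)} (hs : FMod.IsSum z x y) {p : Matrix I I A}
    (hp : p * p = p) : pair ξ₀ h z p = pair ξ₀ h x p + pair ξ₀ h y p := by
  obtain ⟨s₁, s₂, h1, h2, h3, hx, hy⟩ := hs
  obtain ⟨u, hu, e⟩ := isPair_pair ξ₀ h x hp
  obtain ⟨v, hv, e'⟩ := isPair_pair ξ₀ h y hp
  have hf := fred_pair ξ₀ h x hp
  have hf' := fred_pair ξ₀ h y hp
  obtain ⟨b0, b1, b2⟩ := pair_int_prg hx p
  obtain ⟨c0, c1, c2⟩ := pair_int_prg hy p
  have h4 : star s₁ * s₂ = 0 := by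
    have := congrArg (fun t => star s₁ * t * s₂) h3
    simp only [mul_add, add_mul, ← mul_assoc, h1, one_mul, mul_one] at this
    rw [mul_assoc _ _ s₂, h2, mul_one] at this
    exact add_eq_left.1 this
  have h5 : star s₂ * s₁ = 0 := by
    have := congrArg star h4
    rwa [star_mul, star_star, star_zero] at this
  refine IsPair.pair_eq ξ₀ h hp ⟨u + v, ind_conj_prg
    (Matrix.fromCols (Matrix.diagonal fun _ => s₁) (Matrix.diagonal fun _ => s₂))
    (Matrix.fromRows (Matrix.diagonal fun _ => star s₁) (Matrix.diagonal fun _ => star s₂))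
    ?_ ?_ (P089.Ctx.idem_fromBlocks hf.idem₀ hf'.idem₀)
    (P089.Ctx.idem_fromBlocks hf.idem₁ hf'.idem₁) ?_ ?_ ?_ ?_ ?_ (hu.sum hv),
    by rw [map_add, e, e']⟩
  · rw [Matrix.fromRows_mul_fromCols, diag_mul_prg h1, diag_mul_prg h2, diag_mul_prg h4,
      diag_mul_prg h5, Matrix.diagonal_one, Matrix.diagonal_zero, Matrix.fromBlocks_one]
  · rw [Matrix.fromCols_mul_fromRows, diag_mul_prg rfl, diag_mul_prg rfl, Matrix.diagonal_add,
      ← Matrix.diagonal_one]
    exact congrArg _ (funext fun _ => h3)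
  · simp [Matrix.fromBlocks_multiply, hf.left, hf'.left]
  · simp [Matrix.fromBlocks_multiply, hf.right, hf'.right]
  · simp [Matrix.fromCols_mul_fromBlocks, b0, c0]
  · simp [Matrix.fromCols_mul_fromBlocks, b1, c1]
  · simp [Matrix.fromCols_mul_fromBlocks, b2, c2]

theorem perturb_prg {B α β : Type} [Ring B] [Fintype α] [Fintype β] [DecidableEq β]
    {W Δ : Matrix α β B} {W' : Matrix β α B} {E : Matrix β β B} {E' : Matrix α α B}
    (a1 : W' * W = E) (a2 : W * W' = E') (a3 : E * W' = W') (b1 : E' * Δ = Δ) (b2 : Δ * E = Δ)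
    (hu : IsUnit (1 - -(W' * Δ))) :
    ∃ V : Matrix β α B, V * (W + Δ) = E ∧ (W + Δ) * V = E' := by
  obtain ⟨u, hu⟩ := hu
  rw [sub_neg_eq_add] at hu
  have b3 : W * (u : Matrix β β B) = W + Δ := by
    rw [hu, Matrix.mul_add, Matrix.mul_one, ← Matrix.mul_assoc, a2, b1]
  have b4 : E * (u : Matrix β β B) = (u : Matrix β β B) * E := by
    rw [hu, mul_add, add_mul, mul_one, one_mul, ← Matrix.mul_assoc, a3, Matrix.mul_assoc, b2]
  refine ⟨(↑u⁻¹ : Matrix β β B) * W', ?_, ?_⟩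
  · rw [← b3, Matrix.mul_assoc, ← Matrix.mul_assoc W', a1, b4, ← Matrix.mul_assoc, u.inv_mul,
      Matrix.one_mul]
  · rw [← b3, Matrix.mul_assoc, ← Matrix.mul_assoc (u : Matrix β β B), u.mul_inv, Matrix.one_mul,
      a2]

theorem ind_near_prg {B R : Type} [NormedRing B] [CompleteSpace B] [Ring R] {κ : P089.Ctx B R}
    {P₀ P₁ T T' : Matrix I I B} (hf : κ.Fred P₀ P₁ T T')
    {x : P089.K0 R} (hx : κ.Ind P₀ P₁ T x) {τ : ℝ → Matrix I I B}
    (hτ : Continuous τ) {s₀ : ℝ} (h0 : τ s₀ = T) (hl : ∀ s, P₁ * τ s = τ s)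
    (hr : ∀ s, τ s * P₀ = τ s) : ∀ᶠ s in nhds s₀, κ.Ind P₀ P₁ (τ s) x := by
  obtain ⟨p, q, hx, W, W', a1, a2, n1, -, -, -, a5, -⟩ := hf.ind_normal hx
  let Δ : ℝ → Matrix (I ⊕ Fin p.n) (I ⊕ Fin q.n) B :=
    fun s => Matrix.fromBlocks (τ s - T) 0 0 0
  have hΔ : Continuous fun s => -(W' * Δ s) :=
    (continuous_const.matrix_mul ((hτ.sub continuous_const).matrix_fromBlocks continuous_const
      continuous_const continuous_const)).neg
  have hΔ0 : -(W' * Δ s₀) = 0 := by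
    simp only [Δ, h0, sub_self, Matrix.fromBlocks_zero, Matrix.mul_zero, neg_zero]
  have hev : ∀ᶠ s in nhds s₀, ∀ a b, ‖(-(W' * Δ s)) a b‖ ≤
      1 / (Fintype.card (I ⊕ Fin q.n) + 1) := by
    refine Filter.eventually_all.2 fun a => Filter.eventually_all.2 fun b => ?_
    have h1 : Filter.Tendsto (fun s => ‖(-(W' * Δ s)) a b‖) (nhds s₀) (nhds 0) := by
      have := (hΔ.matrix_elem a b).norm.tendsto s₀
      rwa [hΔ0, Matrix.zero_apply, norm_zero] at this
    exact (h1.eventually (gt_mem_nhds (by positivity))).mono fun s hs => hs.le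
  filter_upwards [hev] with s hs
  obtain ⟨V, v1, v2⟩ := perturb_prg (Δ := Δ s) a1 a2 a5
    (by simp [Δ, Matrix.fromBlocks_multiply, Matrix.mul_sub, hl, hf.left])
    (by simp [Δ, Matrix.fromBlocks_multiply, Matrix.sub_mul, hr, hf.right])
    (P089.Model.isUnit_of_small _ hs)
  refine ⟨p, q, hx, W + Δ s, V, v1, v2, ?_⟩
  have := n1.add (P089.Ctx.Near.refl (Δ s))
  simpa [Δ, Matrix.fromBlocks_add] using this

theorem continuous_pair_prg {B : Type} [NormedRing B] (P Q : Matrix I I B) {F : ℝ → B}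
    (hF : Continuous F) : Continuous fun s => P * Matrix.diagonal (fun _ : I => F s) * Q :=
  (continuous_const.matrix_mul (continuous_pi fun _ => hF).matrix_diagonal).matrix_mul
    continuous_const

theorem pair_homotopic {x z : FMod A (compacts H)}
    (hh : @FMod.Homotopic _ _ _ _ _ _ _ _ _ (normTop H) x z) {p : Matrix I I A}
    (hp : p * p = p) : pair ξ₀ h x p = pair ξ₀ h z p := by
  obtain ⟨e1, e2, F, hF, hF0, hF1, hs⟩ := hh
  let w : ℝ → FMod A (compacts H) := fun s => ⟨x.π, x.γ, F s, hs s⟩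
  have hT := continuous_pair_prg (pairMat x p (-x.γ)) (pairMat x p x.γ) hF
  have hl : IsLocallyConstant fun s => pair ξ₀ h (w s) p := by
    refine (IsLocallyConstant.iff_eventually_eq _).2 fun s₀ => ?_
    obtain ⟨y, hy, e⟩ := isPair_pair ξ₀ h (w s₀) hp
    filter_upwards [ind_near_prg (fred_pair ξ₀ h (w s₀) hp) hy hT rfl
      (fun s => (fred_pair ξ₀ h (w s) hp).left) (fun s => (fred_pair ξ₀ h (w s) hp).right)]
      with s hs'
    exact IsPair.pair_eq ξ₀ h hp ⟨y, hs', e⟩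
  have ext : ∀ a b : FMod A (compacts H), a.π = b.π → a.γ = b.γ → a.F = b.F → a = b := by
    rintro ⟨_, _, _, _⟩ ⟨_, _, _, _⟩ rfl rfl rfl
    rfl
  have := hl.apply_eq_of_preconnectedSpace 0 1
  rwa [ext (w 0) x rfl rfl hF0, ext (w 1) z e1 e2 hF1] at this

/-- Data showing that the pairing of `z` and `p` is `-D`. -/
def HasFactor (z : FMod A (compacts H)) (p : Matrix I I A) (D : ℕ) : Prop :=
  ∃ (v₀ w₀ v₁ w₁ : I → Op H H) (E₀ E₁ S : Op H H) (η : Fin D → H),
    (∀ a b, pairMat z p z.γ a b = v₀ a * w₀ b) ∧ (∀ a b, pairMat z p (-z.γ) a b = v₁ a * w₁ b) ∧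
    ∑ a, w₀ a * v₀ a = E₀ ∧ ∑ a, w₁ a * v₁ a = E₁ ∧ E₀ * E₀ = E₀ ∧ E₁ * E₁ = E₁ ∧
    ∑ a, w₁ a * z.F * v₀ a - S ∈ compacts H ∧ star S * S = E₀ ∧
    S * star S + ∑ i, rankOne ℂ (η i) (η i) = E₁ ∧ Orthonormal ℂ η ∧ ∀ i, (star S) (η i) = 0

theorem ind_factor_prg {E₀ E₁ S : Op H H} {D : ℕ} {η : Fin D → H} (h1 : star S * S = E₀)
    (h2 : S * star S + ∑ i, rankOne ℂ (η i) (η i) = E₁) (h3 : Orthonormal ℂ η)
    (h4 : ∀ i, (star S) (η i) = 0) :
    ∃ x, (ctxH ξ₀ h).Ind (P089.Ctx.one11 E₀) (P089.Ctx.one11 E₁) (P089.Ctx.one11 S) x ∧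
      trC x = -(D : ℂ) := by
  have hp : (0 : Matrix Empty Empty ℂ) * 0 = 0 := Matrix.mul_zero _
  have hq : (1 : Matrix (Fin D) (Fin D) ℂ) * 1 = 1 := Matrix.mul_one _
  have c1 : ∀ i, star S * rankOne ℂ (η i) ξ₀ = 0 := fun i => by
    have := comp_rankOne (η i) ξ₀ (star S)
    rw [h4, map_zero, zero_apply] at this
    exact this
  have c2 : ∀ i, (rankOne ℂ ξ₀ (η i) : Op H H) * S = 0 := fun i => by
    have := congrArg star (c1 i)
    rwa [star_mul, star_star, star_zero, ContinuousLinearMap.star_eq_adjoint,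
      adjoint_rankOne] at this
  refine ⟨_, P089.Ctx.Wit.ind hp hq ⟨Matrix.fromBlocks (P089.Ctx.one11 S)
    (Matrix.of fun _ i => rankOne ℂ (η i) ξ₀) 0 0, ⟨Matrix.fromBlocks (P089.Ctx.one11 (star S)) 0
    (Matrix.of fun i _ => rankOne ℂ ξ₀ (η i)) 0, ?_, ?_⟩, ?_⟩, ?_⟩
  · rw [Matrix.fromBlocks_multiply, P089.Ctx.one11_mul, h1]
    simp only [Matrix.mul_zero, add_zero]
    congr 1
    · refine Matrix.ext fun a i => ?_
      rw [Matrix.mul_apply, Fintype.sum_unique]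
      exact c1 i
    · refine Matrix.ext fun i a => ?_
      rw [Matrix.mul_apply, Fintype.sum_unique]
      exact c2 i
    · refine Matrix.ext fun i k => ?_
      rw [Matrix.mul_apply, Fintype.sum_unique, Matrix.of_apply, Matrix.of_apply, rankOne_mul_prg,
        orthonormal_iff_ite.1 h3]
      rfl
  · rw [Matrix.fromBlocks_multiply, P089.Ctx.one11_mul]
    simp only [Matrix.mul_zero, Matrix.zero_mul, add_zero]
    congr 1
    · refine Matrix.ext fun a b => ?_
      rw [Matrix.add_apply, Matrix.mul_apply]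
      simp only [Matrix.of_apply, rankOne_mul_prg, inner_self_prg h, one_smul]
      exact h2
    · exact Subsingleton.elim _ _
  · refine (P089.Ctx.Near.refl _).fromBlocks (fun a i => ?_) (P089.Ctx.Near.refl _)
      (P089.Ctx.Near.refl _)
    rw [Matrix.zero_apply, sub_zero]
    exact mem_cptIdeal.2 (rankOne_mem_prg _ _)
  · rw [map_sub, P089.K0.ofMat_zero, map_zero, zero_sub, trC, P089.K0.ofMat, P089.K0.tr_of]
    simp only [P089.Idem.ofMat, Matrix.submatrix_apply, Matrix.one_apply_eq, AddMonoidHom.id_apply,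
      Finset.sum_const, nsmul_eq_mul, mul_one, neg_inj, Nat.cast_inj]
    exact (Finset.card_fin _).trans (Fintype.card_fin D)

theorem ind_col_prg {B R : Type} [Ring B] [Ring R] {κ : P089.Ctx B R} {P₀ P₁ : Matrix I I B}
    {v₀ w₀ v₁ w₁ : I → B} {E₀ E₁ S F : B} (hP₀ : P₀ * P₀ = P₀) (hP₁ : P₁ * P₁ = P₁)
    (a0 : ∀ a b, P₀ a b = v₀ a * w₀ b) (a1 : ∀ a b, P₁ a b = v₁ a * w₁ b)
    (b0 : ∑ a, w₀ a * v₀ a = E₀) (b1 : ∑ a, w₁ a * v₁ a = E₁) (c0 : E₀ * E₀ = E₀)
    (c1 : E₁ * E₁ = E₁) (hS : ∑ a, w₁ a * F * v₀ a - S ∈ κ.J) {x : P089.K0 R}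
    (hx : κ.Ind (P089.Ctx.one11 E₀) (P089.Ctx.one11 E₁) (P089.Ctx.one11 S) x) :
    κ.Ind P₀ P₁ (P₁ * Matrix.diagonal (fun _ => F) * P₀) x := by
  have k1 : ∀ {v w : I → B} {E : B}, ∑ a, w a * v a = E →
      (Matrix.of fun (_ : Unit) a => w a) * (Matrix.of fun a (_ : Unit) => v a) =
        P089.Ctx.one11 E := fun e => Matrix.ext fun _ _ => e
  have k2 : ∀ {v w : I → B} {P : Matrix I I B}, (∀ a b, P a b = v a * w b) →
      (Matrix.of fun a (_ : Unit) => v a) * (Matrix.of fun (_ : Unit) a => w a) = P :=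
    fun e => Matrix.ext fun a b => by
      rw [Matrix.mul_apply, Fintype.sum_unique, e]
      rfl
  refine P089.Ctx.Ind.equiv (Matrix.of fun a (_ : Unit) => v₀ a)
    (Matrix.of fun a (_ : Unit) => v₁ a) (Matrix.of fun (_ : Unit) a => w₀ a)
    (Matrix.of fun (_ : Unit) a => w₁ a) (by rw [P089.Ctx.one11_mul, c0])
    (by rw [P089.Ctx.one11_mul, c1]) hP₀ hP₁ (k1 b0) (k2 a0) (k1 b1) (k2 a1) ?_ hx
  have n : κ.Near ((Matrix.of fun (_ : Unit) a => w₁ a) *
      Matrix.diagonal (fun _ : I => F) * (Matrix.of fun a (_ : Unit) => v₀ a))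
      (P089.Ctx.one11 S) := by
    intro a b
    rw [Matrix.mul_apply]
    simp only [Matrix.mul_diagonal, Matrix.of_apply]
    exact hS
  refine ((n.symm.mul_left _).mul_right _).trans (P089.Ctx.Near.of_eq ?_)
  rw [← k2 a0, ← k2 a1]
  simp only [Matrix.mul_assoc]

theorem HasFactor.pair_eq {z : FMod A (compacts H)} {p : Matrix I I A} (hp : p * p = p) {D : ℕ}
    (hf : HasFactor z p D) : pair ξ₀ h z p = -(D : ℂ) := by
  obtain ⟨v₀, w₀, v₁, w₁, E₀, E₁, S, η, a0, a1, b0, b1, c0, c1, hS, h1, h2, h3, h4⟩ := hf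
  obtain ⟨x, hx, e⟩ := ind_factor_prg ξ₀ h h1 h2 h3 h4
  have hf := fred_pair ξ₀ h z hp
  exact IsPair.pair_eq ξ₀ h hp
    ⟨x, ind_col_prg hf.idem₀ hf.idem₁ a0 a1 b0 b1 c0 c1 (mem_cptIdeal.2 hS) hx, e⟩

theorem conj_mem_prg (W : H ≃ₗᵢ[ℂ] H') {T : Op H H} (hT : T ∈ compacts H) :
    W.conjStarAlgEquiv T ∈ compacts H' :=
  (IsCompactOperator.comp_clm hT (W.symm : H' →L[ℂ] H)).clm_comp (W : H →L[ℂ] H')

/-- Transport of a Fredholm module along a unitary isomorphism of Hilbert spaces. -/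
def FMod.transport (W : H ≃ₗᵢ[ℂ] H') (z : FMod A (compacts H)) : FMod A (compacts H') where
  π := IsStarHom.toHom (f := fun f => W.conjStarAlgEquiv (z.π f))
    ⟨by simp, by simp, by simp, by simp, fun a => by rw [map_star, map_star]⟩
  γ := W.conjStarAlgEquiv z.γ
  F := W.conjStarAlgEquiv z.F
  fredholm := by
    refine ⟨?_, ?_, fun f => ?_, ?_, fun f => ?_, fun f => ?_, fun f => ?_⟩
    · rw [← map_star, z.fredholm.grading_sa]
    · rw [← map_mul, z.fredholm.grading_sq, map_one]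
    · have := congrArg W.conjStarAlgEquiv (z.fredholm.even_π f)
      rwa [map_mul, map_mul] at this
    · rw [← map_mul, ← map_mul, ← map_neg, z.fredholm.odd_F]
    · have := conj_mem_prg W (z.fredholm.sa_F f)
      rwa [map_mul, map_sub, map_star] at this
    · have := conj_mem_prg W (z.fredholm.sq_F f)
      rwa [map_mul, map_sub, map_mul, map_one] at this
    · have := conj_mem_prg W (z.fredholm.comm_F f)
      rwa [map_sub, map_mul, map_mul] at this

theorem FMod.transport_π (W : H ≃ₗᵢ[ℂ] H') (z : FMod A (compacts H)) (f : A) :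
    (z.transport W).π f = W.conjStarAlgEquiv (z.π f) := rfl

omit [DecidableEq I] in
theorem HasFactor.transport (W : H ≃ₗᵢ[ℂ] H') {z : FMod A (compacts H)} {p : Matrix I I A}
    {D : ℕ} (hf : HasFactor z p D) : HasFactor (z.transport W) p D := by
  obtain ⟨v₀, w₀, v₁, w₁, E₀, E₁, S, η, a0, a1, b0, b1, c0, c1, hS, h1, h2, h3, h4⟩ := hf
  have k : ∀ (G : Op H H) a b, pairMat (z.transport W) p (W.conjStarAlgEquiv G) a b =
      W.conjStarAlgEquiv (pairMat z p G a b) := fun G a b => by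
    change W.conjStarAlgEquiv (z.π (p a b)) * ((2⁻¹ : ℂ) • (1 + W.conjStarAlgEquiv G)) =
      W.conjStarAlgEquiv (z.π (p a b) * ((2⁻¹ : ℂ) • (1 + G)))
    rw [map_mul, map_smul, map_add, map_one]
  refine ⟨fun a => W.conjStarAlgEquiv (v₀ a), fun a => W.conjStarAlgEquiv (w₀ a),
    fun a => W.conjStarAlgEquiv (v₁ a), fun a => W.conjStarAlgEquiv (w₁ a),
    W.conjStarAlgEquiv E₀, W.conjStarAlgEquiv E₁, W.conjStarAlgEquiv S, fun i => W (η i),
    fun a b => ?_, fun a b => ?_, ?_, ?_, ?_, ?_, ?_, ?_, ?_, ?_, fun i => ?_⟩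
  · exact (k z.γ a b).trans (by rw [a0, map_mul])
  · refine Eq.trans ?_ ((k (-z.γ) a b).trans (by rw [a1, map_mul]))
    rw [map_neg]
    rfl
  · simp only [← b0, map_sum, map_mul]
  · simp only [← b1, map_sum, map_mul]
  · rw [← map_mul, c0]
  · rw [← map_mul, c1]
  · have := conj_mem_prg W hS
    simp only [map_sub, map_sum, map_mul] at this
    exact this
  · rw [← map_star, ← map_mul, h1]
  · rw [← h2, map_add, map_mul, map_star, map_sum]
    congr 1
    refine Finset.sum_congr rfl fun i _ => ContinuousLinearMap.ext fun v => ?_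
    rw [LinearIsometryEquiv.conjStarAlgEquiv_apply_apply, rankOne_apply, rankOne_apply, map_smul,
      ← W.inner_map_map, W.apply_symm_apply]
  · exact h3.comp_linearIsometryEquiv W
  · rw [← map_star, LinearIsometryEquiv.conjStarAlgEquiv_apply_apply, W.symm_apply_apply, h4,
      map_zero]

end Vale.Agent.P212
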