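import Vale.Agent.P212.TorusOp
import Vale.Agent.P212.Pairing

/-! TASK TorusCycle: a Kasparov cycle on `ℕ × 𝕋²` pairing to `-D` with the degree `D` line bundle
on each component.
Plan. `nonempty_iso_ellTwo`: from a Hilbert basis `b` of `H` indexed by `ι` get the orthonormal
family `(x, i) ↦ sing x (b i)` of `L2 X H` with trivial orthogonal complement
(`HilbertBasis.mkOfOrthogonalEqBot`); start from the basis of `ℂ` indexed by `Unit`
(or `Fin 1`); finally reindex by `ℕ` (`Denumerable`/`nonempty_denumerable`) and use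
`HilbertBasis.repr`.
The cycle on `HB = L2 (Bool × ℕ) H0`: let `pull n f : C(Ann, ℂ)`, `(x, t) ↦ f (n, x, ↑t)`, it is
`Twisted 0`, `‖pull n f‖ ≤ ‖f‖` and `‖pull n f‖ → 0` (a compact subset of `ℕ × 𝕋²` meets finitely
many levels). `π f = diagOp ((b, n) ↦ π₀ (pull n f))`, `γ = diagOp ((b, n) ↦ if b then 1 else -1)`,
`F = permOp flip * diagOp ((b, n) ↦ if b then U else star U)`, `flip (b, n) = (!b, n)`. Then
`F² = 1`, `F* = F`, and `[π f, F]` is compact by `compacts_of_tendsto` with `σ = flip`.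
`HasFactor`: for `b : Bool`, `a ↦ blk b b' a = sing (b, n) ∘ a ∘ ev (b', n)` (`sandwich`), with
`blk b b' a * blk b' b'' a' = blk b b'' (a * a')`, `star (blk b b' a) = blk b' b (star a)`. Take
`v₀ a = blk true true (π₀ (v a))`, `w₀ a = star (v₀ a)`, `v₁, w₁` the same with `false`,
`E₀ = blk true true 1`, `E₁ = blk false false 1`, `S = blk false true S₀`, `η i = sing (false, n) (η₀ i)`;
`∑ w₁ F v₀ = blk false true (∑ π₀ (v a)* U π₀ (v a)) ≡ blk false true (∑ π₀ (v a)* π₀ (v a) S₀)`.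
Then `FMod.transport`, `HasFactor.transport`. -/

noncomputable section

namespace Vale.Agent.P212

/-- The space `ℕ × 𝕋²`. -/
abbrev Tor : Type := ℕ × T1 × T1

section TcAux

open InnerProductSpace

variable {X H : Type} [NormedAddCommGroup H] [InnerProductSpace ℂ H]

theorem tc_sing_self (y : X) (v : H) : (sing y v : L2 X H) y = v := by
  rw [sing_apply, if_pos rfl]

theorem tc_sing_ne {x y : X} (h : x ≠ y) (v : H) : (sing y v : L2 X H) x = 0 := by
  rw [sing_apply, if_neg h]

theorem tc_inner_sing (x : X) (v : H) (ξ : L2 X H) :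
    inner ℂ (sing x v : L2 X H) ξ = inner ℂ v (ξ x) := by
  open Classical in
  exact lp.inner_single_left (𝕜 := ℂ) (G := fun _ : X => H) x v ξ

theorem tc_basis [CompleteSpace H] (X : Type) {ι : Type} (b : HilbertBasis ι ℂ H) :
    Nonempty (HilbertBasis (X × ι) ℂ (L2 X H)) := by
  classical
  have ho : Orthonormal ℂ (fun q : X × ι => (sing q.1 (b q.2) : L2 X H)) := by
    refine ⟨fun q => by rw [norm_sing]; exact b.orthonormal.1 _, fun q q' hq => ?_⟩
    change inner ℂ (sing q.1 (b q.2) : L2 X H) (sing q'.1 (b q'.2)) = 0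
    rw [tc_inner_sing]
    by_cases h : q.1 = q'.1
    · rw [h, tc_sing_self]
      exact b.orthonormal.2 fun e => hq (Prod.ext h e)
    · rw [tc_sing_ne h, inner_zero_right]
  refine ⟨HilbertBasis.mkOfOrthogonalEqBot ho ?_⟩
  refine (Submodule.eq_bot_iff _).2 fun ξ hξ => lp.ext (funext fun x => ?_)
  have h1 : b.repr (ξ x) = 0 := lp.ext (funext fun i => by
    rw [b.repr_apply_apply, ← tc_inner_sing]
    exact Submodule.inner_right_of_mem_orthogonal
      (Submodule.subset_span (Set.mem_range_self (x, i))) hξ)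
  exact b.repr.map_eq_zero_iff.1 h1

theorem tc_reindex [CompleteSpace H] {ι : Type} (b : HilbertBasis ι ℂ H) (e : ℕ ≃ ι) :
    Nonempty (H ≃ₗᵢ[ℂ] EllTwo) := by
  refine ⟨(HilbertBasis.mk (b.orthonormal.comp e e.injective) ?_).repr⟩
  rw [e.surjective.range_comp]
  exact b.dense_span.ge

theorem tc_blk_apply (x y : X) (A : Op H H) (ξ : L2 X H) :
    blkOk1 x y A ξ = sing x (A (ξ y)) := rfl

theorem tc_blk_mul (x y z : X) (A B : Op H H) :
    blkOk1 x y A * blkOk1 y z B = blkOk1 x z (A * B) := by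
  refine ContinuousLinearMap.ext fun ξ => ?_
  change blkOk1 x y A (blkOk1 y z B ξ) = _
  rw [tc_blk_apply, tc_blk_apply, tc_blk_apply, tc_sing_self]
  rfl

theorem tc_blk_star [CompleteSpace H] (x y : X) (A : Op H H) :
    star (blkOk1 x y A) = blkOk1 y x (star A) := by
  rw [ContinuousLinearMap.star_eq_adjoint, ContinuousLinearMap.star_eq_adjoint, blkOk1, blkOk1,
    ContinuousLinearMap.adjoint_comp, ContinuousLinearMap.adjoint_comp, adjoint_ev, adjoint_sing]
  rfl

theorem tc_blk_add (x y : X) (A B : Op H H) :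
    blkOk1 x y (A + B) = blkOk1 x y A + blkOk1 x y B := by
  refine ContinuousLinearMap.ext fun ξ => ?_
  change (sing x : Op H (L2 X H)) (A (ξ y) + B (ξ y)) = _
  rw [map_add]
  rfl

theorem tc_blk_sub (x y : X) (A B : Op H H) :
    blkOk1 x y (A - B) = blkOk1 x y A - blkOk1 x y B := by
  refine ContinuousLinearMap.ext fun ξ => ?_
  change (sing x : Op H (L2 X H)) (A (ξ y) - B (ξ y)) = _
  rw [map_sub]
  rfl

theorem tc_blk_zero (x y : X) : blkOk1 x y (0 : Op H H) = 0 := by
  refine ContinuousLinearMap.ext fun ξ => ?_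
  change (sing x : Op H (L2 X H)) 0 = _
  rw [map_zero]
  rfl

theorem tc_blk_sum {ι : Type} (s : Finset ι) (x y : X) (A : ι → Op H H) :
    blkOk1 x y (∑ i ∈ s, A i) = ∑ i ∈ s, blkOk1 x y (A i) := by
  classical
  induction s using Finset.induction_on with
  | empty => simp [tc_blk_zero]
  | insert a s ha ih => rw [Finset.sum_insert ha, Finset.sum_insert ha, tc_blk_add, ih]

theorem tc_rankOne (x y : X) (u w : H) :
    rankOne ℂ (sing x u : L2 X H) (sing y w : L2 X H) = blkOk1 x y (rankOne ℂ u w) := by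
  refine ContinuousLinearMap.ext fun ξ => ?_
  rw [tc_blk_apply, rankOne_apply, rankOne_apply, tc_inner_sing, map_smul]

theorem tc_star_diagOp [CompleteSpace H] (T T' : X → Op H H) (C C' : ℝ) (h0 : 0 ≤ C)
    (h : ∀ x, ‖T x‖ ≤ C) (h0' : 0 ≤ C') (h' : ∀ x, ‖T' x‖ ≤ C') (e : ∀ x, star (T x) = T' x) :
    star (diagOp T C h0 h) = diagOp T' C' h0' h' := by
  refine entry_ext fun x y => ?_
  rw [entry_star, entry_diagOp, entry_diagOp]
  by_cases hxy : x = y
  · rw [if_pos hxy, if_pos hxy.symm, e, hxy]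
  · rw [if_neg hxy, if_neg (Ne.symm hxy), star_zero]

end TcAux

theorem nonempty_iso_ellTwo : Nonempty (L2 (Bool × ℕ) H0 ≃ₗᵢ[ℂ] EllTwo) := by
  obtain ⟨b₁⟩ := tc_basis ℚ (OrthonormalBasis.singleton Unit ℂ).toHilbertBasis
  obtain ⟨b₂⟩ := tc_basis ℤ b₁
  obtain ⟨b₃⟩ := tc_basis (Bool × ℕ) b₂
  obtain ⟨d⟩ := nonempty_denumerable ((Bool × ℕ) × ℤ × ℚ × Unit)
  exact tc_reindex b₃ (Denumerable.eqv _).symm

/-- `v` is a trivialization over the annulus of the line bundle `p` on the `n`-th torus, with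
clutching function of degree `D`. -/
structure IsSection {I : Type} [Fintype I] (n D : ℕ) (p : Matrix I I (C0 Tor))
    (v : I → C(Ann, ℂ)) : Prop where
  off : ∀ a b m x y, m ≠ n → p a b (m, x, y) = 0
  on : ∀ a b (x : T1) (t : unitInterval),
    p a b (n, x, ((t : ℝ) : T1)) = v a (x, t) * star (v b (x, t))
  sum : ∀ ω, ∑ a, star (v a ω) * v a ω = 1
  tw : ∀ a, Twisted D (v a)

/-- The defining property of the torus cycle. -/
def IsTorusCycle (z : Cycle0 Tor EllTwo) : Prop :=
  ∀ (I : Type) [Fintype I] (n D : ℕ) (p : Matrix I I (C0 Tor)) (v : I → C(Ann, ℂ)),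
    IsSection n D p v → HasFactor z p D

section TcCycle

open InnerProductSpace

/-- The restriction of `f` to the `n`-th torus, as a function on the annulus. -/
def tcPull (n : ℕ) (f : C0 Tor) : C(Ann, ℂ) where
  toFun ω := f (n, ω.1, ((ω.2 : ℝ) : T1))
  continuous_toFun := (map_continuous f).comp (continuous_const.prodMk (continuous_fst.prodMk
    ((AddCircle.continuous_mk' (1 : ℝ)).comp (continuous_subtype_val.comp continuous_snd))))

theorem tcPull_apply (n : ℕ) (f : C0 Tor) (ω : Ann) :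
    tcPull n f ω = f (n, ω.1, ((ω.2 : ℝ) : T1)) := rfl

theorem tcPull_twisted (n : ℕ) (f : C0 Tor) : Twisted 0 (tcPull n f) := by
  intro x
  have e : ((1 : ℝ) : T1) = 0 := AddCircle.coe_period 1
  rw [tcPull_apply, tcPull_apply]
  simp [e]

theorem tcPull_norm_le (n : ℕ) (f : C0 Tor) : ‖tcPull n f‖ ≤ ‖f‖ := by
  refine (ContinuousMap.norm_le _ (norm_nonneg f)).2 fun ω => ?_
  rw [← ZeroAtInftyContinuousMap.norm_toBCF_eq_norm]
  exact f.toBCF.norm_coe_le_norm _

theorem tcPull_tendsto (f : C0 Tor) :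
    Filter.Tendsto (fun y : Bool × ℕ => ‖tcPull y.2 f‖) Filter.cofinite (nhds 0) := by
  refine Metric.tendsto_nhds.2 fun ε hε => ?_
  have h1 := (Metric.tendsto_nhds.1 (zero_at_infty f)) (ε / 2) (half_pos hε)
  obtain ⟨K, hK, hKs⟩ := Filter.mem_cocompact.1 h1
  have hfin : (Prod.fst '' K).Finite := (hK.image continuous_fst).finite_of_discrete
  refine Filter.eventually_cofinite.2 ((Set.finite_univ.prod hfin).subset fun y hy => ⟨trivial, ?_⟩)
  by_contra hn
  apply hy
  rw [dist_zero_right, norm_norm]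
  refine lt_of_le_of_lt ((ContinuousMap.norm_le _ (half_pos hε).le).2 fun ω => ?_)
    (half_lt_self hε)
  have h2 : (y.2, ω.1, ((ω.2 : ℝ) : T1)) ∈ Kᶜ := fun hm => hn ⟨_, hm, rfl⟩
  have h3 := hKs h2
  rw [Set.mem_ofPred_eq, dist_zero_right] at h3
  exact h3.le

/-- The flip `(b, n) ↦ (!b, n)`. -/
def tcFlip : Equiv.Perm (Bool × ℕ) where
  toFun x := (!x.1, x.2)
  invFun x := (!x.1, x.2)
  left_inv x := by simp
  right_inv x := by simp

variable {H : Type} [NormedAddCommGroup H] [InnerProductSpace ℂ H] [CompleteSpace H]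

theorem tc_norm_le (π : C(Ann, ℂ) →⋆ₐ[ℂ] Op H H) (F : C(Ann, ℂ)) : ‖π F‖ ≤ ‖F‖ :=
  NonUnitalStarAlgHom.norm_apply_le π F

/-- The representation on `ℓ²(Bool × ℕ, H)`. -/
def tcRepFun (π : C(Ann, ℂ) →⋆ₐ[ℂ] Op H H) (f : C0 Tor) :
    Op (L2 (Bool × ℕ) H) (L2 (Bool × ℕ) H) :=
  diagOp (fun x => π (tcPull x.2 f)) ‖f‖ (norm_nonneg f)
    fun x => (tc_norm_le π _).trans (tcPull_norm_le x.2 f)

theorem tcRepFun_apply (π : C(Ann, ℂ) →⋆ₐ[ℂ] Op H H) (f : C0 Tor) (ξ : L2 (Bool × ℕ) H)
    (x : Bool × ℕ) : tcRepFun π f ξ x = π (tcPull x.2 f) (ξ x) := rfl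

theorem isStarHom_tcRepFun (π : C(Ann, ℂ) →⋆ₐ[ℂ] Op H H) : IsStarHom (tcRepFun π) where
  smul c f := op_ext fun ξ x => by
    have e : tcPull x.2 (c • f) = c • tcPull x.2 f := rfl
    rw [tcRepFun_apply, e, map_smul]
    rfl
  zero := op_ext fun ξ x => by
    have e : tcPull x.2 0 = 0 := rfl
    rw [tcRepFun_apply, e, map_zero]
    rfl
  add f g := op_ext fun ξ x => by
    have e : tcPull x.2 (f + g) = tcPull x.2 f + tcPull x.2 g := rfl
    rw [tcRepFun_apply, e, map_add]
    rfl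
  mul f g := op_ext fun ξ x => by
    have e : tcPull x.2 (f * g) = tcPull x.2 f * tcPull x.2 g := rfl
    rw [tcRepFun_apply, e, map_mul]
    rfl
  star f := (tc_star_diagOp _ _ _ _ _ _ _ _ fun x => by
    have e : tcPull x.2 (star f) = star (tcPull x.2 f) := rfl
    rw [e, map_star]).symm

/-- The sign of the grading. -/
def tcSgn (H : Type) [NormedAddCommGroup H] [InnerProductSpace ℂ H] (x : Bool × ℕ) : Op H H :=
  if x.1 then 1 else -1

omit [CompleteSpace H] in
theorem tcSgn_norm_le (x : Bool × ℕ) : ‖tcSgn H x‖ ≤ 1 := by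
  unfold tcSgn
  split_ifs
  · exact ContinuousLinearMap.norm_id_le
  · rw [norm_neg]
    exact ContinuousLinearMap.norm_id_le

/-- The grading. -/
def tcGrad (H : Type) [NormedAddCommGroup H] [InnerProductSpace ℂ H] :
    Op (L2 (Bool × ℕ) H) (L2 (Bool × ℕ) H) :=
  diagOp (tcSgn H) 1 zero_le_one tcSgn_norm_le

omit [CompleteSpace H] in
theorem tcGrad_true (ξ : L2 (Bool × ℕ) H) (n : ℕ) : tcGrad H ξ (true, n) = ξ (true, n) := rfl

omit [CompleteSpace H] in
theorem tcGrad_false (ξ : L2 (Bool × ℕ) H) (n : ℕ) : tcGrad H ξ (false, n) = -ξ (false, n) := rfl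

/-- The blocks of the operator. -/
def tcW (U : Op H H) (x : Bool × ℕ) : Op H H := if x.1 then star U else U

theorem tcW_norm_le (U : Op H H) (x : Bool × ℕ) : ‖tcW U x‖ ≤ ‖U‖ := by
  unfold tcW
  split_ifs
  · exact (norm_star U).le
  · exact le_rfl

/-- The operator. -/
def tcF (U : Op H H) : Op (L2 (Bool × ℕ) H) (L2 (Bool × ℕ) H) :=
  diagOp (tcW U) ‖U‖ (norm_nonneg U) (tcW_norm_le U) * permOp _ H tcFlip

theorem tcF_apply (U : Op H H) (ξ : L2 (Bool × ℕ) H) (x : Bool × ℕ) :
    tcF U ξ x = tcW U x (ξ (tcFlip x)) := rfl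

theorem tcF_true (U : Op H H) (ξ : L2 (Bool × ℕ) H) (n : ℕ) :
    tcF U ξ (true, n) = (star U) (ξ (false, n)) := rfl

theorem tcF_false (U : Op H H) (ξ : L2 (Bool × ℕ) H) (n : ℕ) :
    tcF U ξ (false, n) = U (ξ (true, n)) := rfl

theorem star_tcF (U : Op H H) : star (tcF U) = tcF U := by
  rw [tcF, star_mul, star_permOp, tc_star_diagOp (tcW U) (fun x => tcW U (tcFlip x)) _ ‖U‖ _ _
    (norm_nonneg U) (fun x => tcW_norm_le U _) (by rintro ⟨b, n⟩; cases b <;> simp [tcW, tcFlip])]
  refine op_ext fun ξ x => ?_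
  obtain ⟨b, n⟩ := x
  cases b <;> rfl

theorem tc_comm_entry (π : C(Ann, ℂ) →⋆ₐ[ℂ] Op H H) (U : Op H H) (f : C0 Tor) (x y : Bool × ℕ)
    (v : H) : entry (tcRepFun π f * tcF U - tcF U * tcRepFun π f) x y v =
      (π (tcPull x.2 f) * tcW U x - tcW U x * π (tcPull x.2 f))
        ((sing y v : L2 (Bool × ℕ) H) (tcFlip x)) := rfl

/-- The torus cycle on `ℓ²(Bool × ℕ, H)`. -/
def tcCycle (π : C(Ann, ℂ) →⋆ₐ[ℂ] Op H H) (U : Op H H) (h1 : star U * U = 1)
    (h2 : U * star U = 1) (hc : ∀ F, Twisted 0 F → U * π F - π F * U ∈ compacts H) :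
    Cycle0 Tor (L2 (Bool × ℕ) H) where
  π := (isStarHom_tcRepFun π).toHom
  γ := tcGrad H
  F := tcF U
  fredholm := by
    refine ⟨?_, ?_, fun f => ?_, ?_, fun f => ?_, fun f => ?_, fun f => ?_⟩
    · exact tc_star_diagOp _ _ _ _ _ _ _ _ (by rintro ⟨b, n⟩; cases b <;> simp [tcSgn])
    · refine op_ext fun ξ x => ?_
      obtain ⟨b, n⟩ := x
      change tcGrad H (tcGrad H ξ) (b, n) = ξ (b, n)
      cases b
      · rw [tcGrad_false, tcGrad_false, neg_neg]
      · rfl
    · refine op_ext fun ξ x => ?_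
      obtain ⟨b, n⟩ := x
      change tcGrad H (tcRepFun π f ξ) (b, n) = tcRepFun π f (tcGrad H ξ) (b, n)
      cases b
      · rw [tcGrad_false, tcRepFun_apply, tcRepFun_apply, tcGrad_false, map_neg]
      · rfl
    · refine op_ext fun ξ x => ?_
      obtain ⟨b, n⟩ := x
      change tcGrad H (tcF U ξ) (b, n) = -(tcF U (tcGrad H ξ) (b, n))
      cases b
      · rfl
      · rw [tcGrad_true, tcF_true, tcF_true, tcGrad_false, map_neg, neg_neg]
    · rw [star_tcF, sub_self, mul_zero]
      exact compacts_zero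
    · have e : tcF U * tcF U = 1 := by
        refine op_ext fun ξ x => ?_
        obtain ⟨b, n⟩ := x
        cases b
        · exact DFunLike.congr_fun h2 (ξ (false, n))
        · exact DFunLike.congr_fun h1 (ξ (true, n))
      rw [e, sub_self, mul_zero]
      exact compacts_zero
    · change tcRepFun π f * tcF U - tcF U * tcRepFun π f ∈ _
      have e : ∀ y, entry (tcRepFun π f * tcF U - tcF U * tcRepFun π f) (tcFlip y) y =
          π (tcPull y.2 f) * tcW U (tcFlip y) - tcW U (tcFlip y) * π (tcPull y.2 f) := by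
        intro y
        refine ContinuousLinearMap.ext fun v => ?_
        have e' : tcFlip (tcFlip y) = y := tcFlip.left_inv y
        rw [tc_comm_entry, e', tc_sing_self]
        rfl
      refine compacts_of_tendsto _ tcFlip (fun x y hxy => ?_) (fun y => ?_) ?_
      · refine ContinuousLinearMap.ext fun v => ?_
        rw [tc_comm_entry, tc_sing_ne, map_zero]
        · rfl
        · intro e'
          apply hxy
          rw [← e']
          exact (tcFlip.left_inv x).symm
      · rw [e]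
        have h := hc _ (tcPull_twisted y.2 f)
        obtain ⟨b, n⟩ := y
        cases b
        · have h' := compacts_mul_right (compacts_mul_left (star U) h) (star U)
          convert h' using 1
          change π (tcPull n f) * star U - star U * π (tcPull n f) = _
          rw [mul_sub, sub_mul, ← mul_assoc, h1, one_mul, mul_assoc, mul_assoc, h2, mul_one]
        · have h' := compacts_neg h
          rw [neg_sub] at h'
          exact h'
      · simp only [e]
        refine squeeze_zero (fun _ => norm_nonneg _) (g := fun y => 2 * ‖U‖ * ‖tcPull y.2 f‖)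
          (fun y => ?_) (by simpa using (tcPull_tendsto f).const_mul (2 * ‖U‖))
        have a1 := tc_norm_le π (tcPull y.2 f)
        have a2 := tcW_norm_le U (tcFlip y)
        have a3 : ‖π (tcPull y.2 f) * tcW U (tcFlip y)‖ ≤ ‖tcPull y.2 f‖ * ‖U‖ :=
          (norm_mul_le _ _).trans (by gcongr)
        have a4 : ‖tcW U (tcFlip y) * π (tcPull y.2 f)‖ ≤ ‖U‖ * ‖tcPull y.2 f‖ :=
          (norm_mul_le _ _).trans (by gcongr)
        refine (norm_sub_le _ _).trans ?_
        linarith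

theorem tc_rep_section (π : C(Ann, ℂ) →⋆ₐ[ℂ] Op H H) {I : Type} [Fintype I] {n D : ℕ}
    {p : Matrix I I (C0 Tor)} {v : I → C(Ann, ℂ)} (hs : IsSection n D p v) (a b : I)
    (c : Bool) (G : Op (L2 (Bool × ℕ) H) (L2 (Bool × ℕ) H))
    (hG : ∀ ξ m, G ξ (c, m) = ξ (c, m)) (hG' : ∀ ξ m, G ξ (!c, m) = -ξ (!c, m)) :
    evenPart (tcRepFun π (p a b)) G =
      blkOk1 (c, n) (c, n) (π (v a)) * blkOk1 (c, n) (c, n) (star (π (v b))) := by
  rw [tc_blk_mul]
  refine op_ext fun ξ x => ?_
  obtain ⟨c', m⟩ := x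
  change π (tcPull m (p a b)) ((2⁻¹ : ℂ) • (ξ (c', m) + G ξ (c', m))) = _
  rw [tc_blk_apply]
  by_cases hc : c' = c
  · subst hc
    rw [hG, ← two_smul ℂ, smul_smul, inv_mul_cancel₀ two_ne_zero, one_smul]
    by_cases hm : m = n
    · subst hm
      have e : tcPull m (p a b) = v a * star (v b) := ContinuousMap.ext fun ω => hs.on a b ω.1 ω.2
      rw [tc_sing_self, e, map_mul, map_star]
    · have e : tcPull m (p a b) = 0 := ContinuousMap.ext fun ω => hs.off a b m _ _ hm
      rw [tc_sing_ne (fun h => hm (congrArg Prod.snd h)), e, map_zero]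
      rfl
  · have hc' : c' = !c := by cases c <;> cases c' <;> simp_all
    rw [tc_sing_ne (fun h => hc (congrArg Prod.fst h)), hc', hG', add_neg_cancel, smul_zero,
      map_zero]

theorem tc_hasFactor (π : C(Ann, ℂ) →⋆ₐ[ℂ] Op H H) (U : Op H H) (h1 : star U * U = 1)
    (h2 : U * star U = 1) (hc : ∀ F, Twisted 0 F → U * π F - π F * U ∈ compacts H)
    {I : Type} [Fintype I] {n D : ℕ} {p : Matrix I I (C0 Tor)} {v : I → C(Ann, ℂ)}
    (hs : IsSection n D p v) (S : Op H H) (η : Fin D → H) (hS1 : star S * S = 1)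
    (hS2 : S * star S + ∑ i, rankOne ℂ (η i) (η i) = 1) (hη : Orthonormal ℂ η)
    (hη' : ∀ i, (star S) (η i) = 0) (hS : ∀ F, Twisted D F → U * π F - π F * S ∈ compacts H) :
    HasFactor (tcCycle π U h1 h2 hc) p D := by
  have hsum : ∑ a, star (π (v a)) * π (v a) = 1 := by
    have e : ∑ a, star (v a) * v a = 1 := ContinuousMap.ext fun ω => by
      rw [ContinuousMap.coe_sum, Finset.sum_apply]
      exact hs.sum ω
    simp only [← map_star, ← map_mul]
    rw [← map_sum, e, map_one]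
  refine ⟨fun a => blkOk1 (true, n) (true, n) (π (v a)),
    fun a => blkOk1 (true, n) (true, n) (star (π (v a))),
    fun a => blkOk1 (false, n) (false, n) (π (v a)),
    fun a => blkOk1 (false, n) (false, n) (star (π (v a))),
    blkOk1 (true, n) (true, n) 1, blkOk1 (false, n) (false, n) 1, blkOk1 (false, n) (true, n) S,
    fun i => sing (false, n) (η i), fun a b => ?_, fun a b => ?_, ?_, ?_, ?_, ?_, ?_, ?_, ?_, ?_,
    fun i => ?_⟩
  · exact tc_rep_section π hs a b true (tcGrad H) (fun _ _ => rfl) (fun _ _ => rfl)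
  · exact tc_rep_section π hs a b false (-tcGrad H) (fun _ _ => neg_neg _) (fun _ _ => rfl)
  · simp only [tc_blk_mul]
    rw [← tc_blk_sum, hsum]
  · simp only [tc_blk_mul]
    rw [← tc_blk_sum, hsum]
  · rw [tc_blk_mul, one_mul]
  · rw [tc_blk_mul, one_mul]
  · have e : ∀ A B : Op H H, blkOk1 (false, n) (false, n) A * tcF U * blkOk1 (true, n) (true, n) B =
        blkOk1 (false, n) (true, n) (A * U * B) := by
      intro A B
      refine ContinuousLinearMap.ext fun ξ => ?_
      change blkOk1 (false, n) (false, n) A (tcF U (blkOk1 (true, n) (true, n) B ξ)) = _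
      rw [tc_blk_apply, tcF_false, tc_blk_apply, tc_sing_self, tc_blk_apply]
      rfl
    change ∑ a, blkOk1 (false, n) (false, n) (star (π (v a))) * tcF U *
      blkOk1 (true, n) (true, n) (π (v a)) - blkOk1 (false, n) (true, n) S ∈ _
    simp only [e]
    rw [← tc_blk_sum, ← tc_blk_sub]
    refine blkOk1_mem _ _ ?_
    have e' : ∑ a, star (π (v a)) * U * π (v a) - S =
        ∑ a, star (π (v a)) * (U * π (v a) - π (v a) * S) := by
      simp only [mul_sub, Finset.sum_sub_distrib, ← mul_assoc]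
      rw [← Finset.sum_mul, hsum, one_mul]
    rw [e']
    exact compacts_sum _ fun a _ => compacts_mul_left _ (hS _ (hs.tw a))
  · rw [tc_blk_star, tc_blk_mul, hS1]
  · simp only [tc_rankOne]
    rw [tc_blk_star, tc_blk_mul, ← tc_blk_sum, ← tc_blk_add, hS2]
  · refine ⟨fun i => by rw [norm_sing]; exact hη.1 i, fun i j hij => ?_⟩
    change inner ℂ (sing (false, n) (η i) : L2 (Bool × ℕ) H) (sing (false, n) (η j)) = 0
    rw [tc_inner_sing, tc_sing_self]
    exact hη.2 hij
  · rw [tc_blk_star, tc_blk_apply, tc_sing_self, hη', map_zero]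

end TcCycle

theorem exists_torus_cycle : ∃ z : Cycle0 Tor EllTwo, IsTorusCycle z := by
  obtain ⟨π, U, h1, h2, hc, hD⟩ := exists_torusOp
  obtain ⟨W⟩ := nonempty_iso_ellTwo
  refine ⟨(tcCycle π U h1 h2 hc).transport W, fun I _ n D p v hs => ?_⟩
  obtain ⟨S, η, hS1, hS2, hη, hη', hS⟩ := hD D
  exact (tc_hasFactor π U h1 h2 hc hs S η hS1 hS2 hη hη' hS).transport W

end Vale.Agent.P212
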