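import Vale.Agent.P212.LineBundle
import Vale.Agent.P212.TorusCycle

/-! TASK Tip: the proper map `ℕ × 𝕋² → P₁(Ysp)` and the trivializing sections of the pulled back
line bundles.
Plan. `sum_level`: the points of level `n` are in bijection with `range R ×ˢ range R`
(`Finset.sum_bij'` / `Finset.sum_product`). `tipPt`: `sum_wt` twice; `diam` from `cyc_of_wt`,
`Iter.single`, `Ysp.edist_le_iff`. Properness: `{n} × 𝕋²` is compact.
`exists_section`: put `R = RR n`, `Λ t = ∑ j ∈ range R, wt R j ↑t * (t - zeta R j ↑t)` (continuous,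
`Λ 1 = Λ 0 + 1` as `(1 : ℝ) = (0 : ℝ)` in `T1`). For `a : I` with `a = s y` (then `y.n = n`) put
`v a (x, t) = √(wt R y.x x * wt R y.y ↑t) * ec (D * Λ t * zeta R y.x x)`, otherwise `v a = 0`.
With `μ = tipPt (n, x, ↑t)` and `μ' = Rips.map s μ`: `μ'.t (s y) = μ.t y`, `μ'.t = 0` off the range.
For `a = s y`, `b = s y'` in the support,
`∑_{d ∈ I} μ' d * c a b d = D * wrap y.x y'.x * ∑_j wt j ↑t * wrap y'.y j`,
`wrap y.x y'.x = zeta y.x x - zeta y'.x x ∈ ℤ`, `wrap y'.y j = zeta y'.y ↑t - zeta j ↑t`, so the last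
sum is `Λ t - (t - zeta y'.y ↑t)` with `t - zeta y'.y ↑t ∈ ℤ` (`exists_int_sub_zeta`, `ec_int`).
Twisting: `ec (D * zeta R y.x x) = fourier D x` on the support (`coe_zeta`, `fourier_coe_eq_ec`). -/

noncomputable section

open Classical

namespace Vale.Agent.P212

theorem sum_level {M : Type} [AddCommMonoid M] (n : ℕ) (f : ℕ → ℕ → M) :
    ∑ y ∈ (Ysp.finite_level n).toFinset, f y.x y.y =
      ∑ i ∈ Finset.range (RR n), ∑ j ∈ Finset.range (RR n), f i j := by
  rw [← Finset.sum_product']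
  refine Finset.sum_bij (fun y _ => (y.x, y.y)) ?_ ?_ ?_ ?_
  · intro y hy
    have h : y.n = n := by simpa using hy
    simp only [Finset.mem_product, Finset.mem_range]
    exact ⟨h ▸ y.hx, h ▸ y.hy⟩
  · intro y hy y' hy' h
    have h1 : y.n = n := by simpa using hy
    have h2 : y'.n = n := by simpa using hy'
    obtain ⟨h3, h4⟩ := Prod.mk.inj h
    exact Ysp.ext (h1.trans h2.symm) h3 h4
  · rintro ⟨i, j⟩ h
    simp only [Finset.mem_product, Finset.mem_range] at h
    exact ⟨⟨n, i, j, h.1, h.2⟩, by simp, rfl⟩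
  · intro y _; rfl

theorem tip_sum_wt (n : ℕ) (x x' : T1) :
    ∑ y ∈ (Ysp.finite_level n).toFinset, wt (RR n) y.x x * wt (RR n) y.y x' = 1 := by
  rw [sum_level n fun i j => wt (RR n) i x * wt (RR n) j x', ← Finset.sum_mul_sum,
    sum_wt (RR_pos n), sum_wt (RR_pos n), one_mul]

/-- The point of the Rips complex attached to a point of `ℕ × 𝕋²`. -/
def tipPt (ω : Tor) : Rips Ysp 1 where
  t y := if y.n = ω.1 then wt (RR ω.1) y.x ω.2.1 * wt (RR ω.1) y.y ω.2.2 else 0
  nonneg y := by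
    split_ifs
    exacts [mul_nonneg (wt_nonneg _ _ _) (wt_nonneg _ _ _), le_rfl]
  finite := (Ysp.finite_level ω.1).subset fun y hy => by
    by_contra h
    exact hy (if_neg h)
  sum_eq := by
    rw [finsum_eq_sum_of_support_subset (s := (Ysp.finite_level ω.1).toFinset), ← tip_sum_wt ω.1
      ω.2.1 ω.2.2]
    · exact Finset.sum_congr rfl fun y hy => if_pos (by simpa using hy)
    · intro y hy
      by_contra h
      exact hy (if_neg (by simpa using h))
  diam y y' hy hy' := by
    have h1 : y.n = ω.1 := by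
      by_contra h
      exact hy (if_neg h)
    have h2 : y'.n = ω.1 := by
      by_contra h
      exact hy' (if_neg h)
    rw [if_pos h1] at hy
    rw [if_pos h2] at hy'
    refine (Ysp.edist_le_iff _ _ 1).2 (Iter.single ⟨h1.trans h2.symm, ?_, ?_⟩)
    · rw [h1]
      exact cyc_of_wt (RR_pos _) (left_ne_zero_of_mul hy) (left_ne_zero_of_mul hy')
    · rw [h1]
      exact cyc_of_wt (RR_pos _) (right_ne_zero_of_mul hy) (right_ne_zero_of_mul hy')

theorem tipPt_t (ω : Tor) (y : Ysp) : (tipPt ω).t y =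
    if y.n = ω.1 then wt (RR ω.1) y.x ω.2.1 * wt (RR ω.1) y.y ω.2.2 else 0 := rfl

theorem tip_continuous (y : Ysp) : Continuous fun ω : Tor => (tipPt ω).t y := by
  refine continuous_prod_of_discrete_left.2 fun m => ?_
  simp only [tipPt_t]
  split_ifs
  · exact ((continuous_wt (RR_pos m) _).comp continuous_fst).mul
      ((continuous_wt (RR_pos m) _).comp continuous_snd)
  · exact continuous_const

theorem tip_proper (y : Ysp) : ∃ K : Set Tor, IsCompact K ∧ ∀ ω, (tipPt ω).t y ≠ 0 → ω ∈ K := by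
  refine ⟨{y.n} ×ˢ Set.univ, isCompact_singleton.prod isCompact_univ, fun ω h => ⟨?_, trivial⟩⟩
  by_contra h'
  exact h (if_neg fun h2 => h' h2.symm)

/-- The proper map `ℕ × 𝕋² → P₁(Ysp)`. -/
def tipMap : CocompactMap Tor (Rips Ysp 1) := cocompactOf tipPt tip_continuous tip_proper

theorem tipMap_apply (ω : Tor) : tipMap ω = tipPt ω := rfl

/-- The function `Λ`. -/
def tipLam (R : ℕ) (t : ℝ) : ℝ := ∑ j ∈ Finset.range R, wt R j (t : T1) * (t - zeta R j (t : T1))

theorem tip_continuous_coe : Continuous fun t : ℝ => (t : T1) := AddCircle.continuous_mk' 1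

theorem continuous_tipLam {R : ℕ} (hR : 0 < R) : Continuous (tipLam R) :=
  continuous_finsetSum _ fun j _ => ((continuous_wt hR j).comp tip_continuous_coe).mul
    (continuous_id.sub ((continuous_zeta R j).comp tip_continuous_coe))

theorem tip_coe_one : ((1 : ℝ) : T1) = ((0 : ℝ) : T1) := by
  rw [AddCircle.coe_period, AddCircle.coe_zero]

theorem tipLam_one {R : ℕ} (hR : 0 < R) : tipLam R 1 = tipLam R 0 + 1 := by
  rw [tipLam, tipLam, tip_coe_one]
  refine Eq.trans ?_ (congrArg (_ + ·) (sum_wt hR ((0 : ℝ) : T1)))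
  rw [← Finset.sum_add_distrib]
  exact Finset.sum_congr rfl fun j _ => by ring

theorem tip_sum_wrap {R i : ℕ} (hR : 4 ≤ R) {t : ℝ} (h : wt R i (t : T1) ≠ 0) :
    ∃ m : ℤ, ∑ j ∈ Finset.range R, wt R j (t : T1) * wrap R i j = tipLam R t - m := by
  obtain ⟨m, hm⟩ := exists_int_sub_zeta hR h
  refine ⟨m, ?_⟩
  have h1 : (m : ℝ) = ∑ j ∈ Finset.range R, wt R j (t : T1) * m := by
    rw [← Finset.sum_mul, sum_wt (by omega), one_mul]
  rw [h1, tipLam, ← Finset.sum_sub_distrib]
  refine Finset.sum_congr rfl fun j _ => ?_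
  by_cases hj : wt R j (t : T1) = 0
  · simp [hj]
  · rw [← zeta_sub hR h hj, ← hm]; ring

/-- The local sections. -/
def tipSec (n D : ℕ) (y : Ysp) : C(Ann, ℂ) where
  toFun ω := (Real.sqrt (wt (RR n) y.x ω.1 * wt (RR n) y.y ((ω.2 : ℝ) : T1)) : ℝ) *
    ec (D * tipLam (RR n) ω.2 * zeta (RR n) y.x ω.1)
  continuous_toFun := by
    have h2 : Continuous fun ω : Ann => (ω.2 : ℝ) := continuous_subtype_val.comp continuous_snd
    refine (Complex.continuous_ofReal.comp (Real.continuous_sqrt.comp ?_)).mul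
      (continuous_ec.comp ?_)
    · exact ((continuous_wt (RR_pos n) _).comp continuous_fst).mul
        ((continuous_wt (RR_pos n) _).comp (tip_continuous_coe.comp h2))
    · exact (continuous_const.mul ((continuous_tipLam (RR_pos n)).comp h2)).mul
        ((continuous_zeta _ _).comp continuous_fst)

theorem tipSec_apply (n D : ℕ) (y : Ysp) (x : T1) (t : unitInterval) : tipSec n D y (x, t) =
    (Real.sqrt (wt (RR n) y.x x * wt (RR n) y.y ((t : ℝ) : T1)) : ℝ) *
      ec (D * tipLam (RR n) t * zeta (RR n) y.x x) := rfl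

theorem tipSec_twisted (n D : ℕ) (y : Ysp) : Twisted D (tipSec n D y) := by
  intro x
  rw [tipSec_apply, tipSec_apply, Set.Icc.coe_one, Set.Icc.coe_zero, tip_coe_one,
    tipLam_one (RR_pos n)]
  by_cases h : wt (RR n) y.x x = 0
  · simp [h]
  · have h1 : fourier D x = ec (D * zeta (RR n) y.x x) := by
      rw [← fourier_coe_eq_ec, coe_zeta (four_le_RR n) h]
    rw [h1, mul_left_comm, ← ec_add]
    congr 2
    ring

theorem tipSec_sq (n D : ℕ) (y : Ysp) (x : T1) (t : unitInterval) :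
    star (tipSec n D y (x, t)) * tipSec n D y (x, t) =
      ((wt (RR n) y.x x * wt (RR n) y.y ((t : ℝ) : T1) : ℝ) : ℂ) := by
  rw [tipSec_apply, star_mul', star_ec, mul_mul_mul_comm, ← ec_add, neg_add_cancel, ec_zero,
    mul_one, Complex.star_def, Complex.conj_ofReal, ← Complex.ofReal_mul,
    Real.mul_self_sqrt (mul_nonneg (wt_nonneg _ _ _) (wt_nonneg _ _ _))]

variable {X : Type} [PseudoEMetricSpace X] [BddGeom X]

omit [PseudoEMetricSpace X] [BddGeom X] in
theorem tip_sum_range {M : Type} [AddCommMonoid M] {s : Ysp → X} (hs : Function.Injective s)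
    {I : Finset X} {n : ℕ} (hI : ∀ y, s y ∈ I ↔ y.n = n) (f : X → M)
    (hf : ∀ x, x ∉ Set.range s → f x = 0) :
    ∑ d ∈ I, f d = ∑ y ∈ (Ysp.finite_level n).toFinset, f (s y) := by
  rw [← Finset.sum_image (g := s) (f := f) (fun _ _ _ _ h => hs h)]
  refine (Finset.sum_subset ?_ ?_).symm
  · intro x hx
    obtain ⟨y, hy, rfl⟩ := Finset.mem_image.1 hx
    exact (hI y).2 (by simpa using hy)
  · intro x hx hx'
    refine hf x ?_
    rintro ⟨y, rfl⟩
    exact hx' (Finset.mem_image_of_mem _ (by simpa using (hI y).1 hx))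

theorem exists_section (s : Ysp → X) (hs : Function.Injective s)
    (hd : ∀ y y', edist y y' ≤ (1 : ℕ) → edist (s y) (s y') ≤ (1 : ℕ)) {r : ℕ} (hr : 1 ≤ r)
    (I : Finset X) (n D : ℕ) (hI : ∀ y, s y ∈ I ↔ y.n = n) (c : X → X → X → ℤ)
    (hc : ∀ y y' y'' : Ysp, y.n = n → y'.n = n → y''.n = n →
      c (s y) (s y') (s y'') = D * wrap (RR n) y.x y'.x * wrap (RR n) y'.y y''.y) :
    ∃ v : I → C(Ann, ℂ), IsSection n D
      ((((lineProj I c r).map (precomp (ripsIncl hr))).map (precomp (ripsMap s hs hd))).map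
        (precomp tipMap)) v := by
  let V : X → C(Ann, ℂ) := Function.extend s (tipSec n D) 0
  have hV : ∀ y, V (s y) = tipSec n D y := fun y => hs.extend_apply _ _ _
  have hV0 : ∀ x, x ∉ Set.range s → V x = 0 := fun x hx => Function.extend_apply' _ _ _ hx
  have hp : ∀ (a b : I) (ω : Tor), ((((lineProj I c r).map (precomp (ripsIncl hr))).map
      (precomp (ripsMap s hs hd))).map (precomp tipMap)) a b ω =
      (Real.sqrt ((Rips.map s hs hd (tipPt ω)).t a) : ℝ) *
        (Real.sqrt ((Rips.map s hs hd (tipPt ω)).t b) : ℝ) *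
        ec (∑ d ∈ I, (Rips.map s hs hd (tipPt ω)).t d * c a.1 b.1 d) := fun _ _ _ => rfl
  refine ⟨fun a => V a.1, ?_, ?_, ?_, ?_⟩
  · intro a b m x y hm
    rw [hp]
    have : (Rips.map s hs hd (tipPt (m, x, y))).t a = 0 := by
      by_cases ha : a.1 ∈ Set.range s
      · obtain ⟨y₁, hy₁⟩ := ha
        have h1 : y₁.n = n := (hI y₁).1 (hy₁ ▸ a.2)
        rw [← hy₁, Rips.map_t, tipPt_t, if_neg (by rw [h1]; exact hm.symm)]
      · exact Rips.map_t_of_not_mem s hs hd _ ha
    simp [this]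
  · intro a b x t
    rw [hp]
    by_cases ha : a.1 ∈ Set.range s
    swap
    · simp [Rips.map_t_of_not_mem s hs hd _ ha, hV0 _ ha]
    by_cases hb : b.1 ∈ Set.range s
    swap
    · simp [Rips.map_t_of_not_mem s hs hd _ hb, hV0 _ hb]
    obtain ⟨y, hy⟩ := ha
    obtain ⟨y', hy'⟩ := hb
    have h1 : y.n = n := (hI y).1 (hy ▸ a.2)
    have h2 : y'.n = n := (hI y').1 (hy' ▸ b.2)
    rw [tip_sum_range hs hI _ fun d hd' => by rw [Rips.map_t_of_not_mem s hs hd _ hd', zero_mul]]
    simp only [← hy, ← hy', Rips.map_t, hV, tipPt_t, h1, h2, if_true, tipSec_apply]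
    rw [star_mul', star_ec, mul_mul_mul_comm, ← ec_add, Complex.star_def, Complex.conj_ofReal]
    by_cases hw : wt (RR n) y.x x * wt (RR n) y.y ((t : ℝ) : T1) = 0
    · simp [hw]
    by_cases hw' : wt (RR n) y'.x x * wt (RR n) y'.y ((t : ℝ) : T1) = 0
    · simp [hw']
    congr 1
    obtain ⟨m, hm⟩ := tip_sum_wrap (four_le_RR n) (right_ne_zero_of_mul hw')
    have h3 := zeta_sub (four_le_RR n) (left_ne_zero_of_mul hw) (left_ne_zero_of_mul hw')
    have h4 : ∑ y'' ∈ (Ysp.finite_level n).toFinset,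
        (if y''.n = n then wt (RR n) y''.x x * wt (RR n) y''.y ((t : ℝ) : T1) else 0) *
          (c (s y) (s y') (s y'') : ℝ) =
        D * wrap (RR n) y.x y'.x * (tipLam (RR n) t - m) := by
      have h6 : tipLam (RR n) t - m = (∑ i ∈ Finset.range (RR n), wt (RR n) i x) *
          ∑ j ∈ Finset.range (RR n), wt (RR n) j ((t : ℝ) : T1) * wrap (RR n) y'.y j := by
        rw [sum_wt (RR_pos n), one_mul, hm]
      rw [h6, Finset.sum_mul_sum, ← sum_level n, Finset.mul_sum]
      refine Finset.sum_congr rfl fun y'' hy'' => ?_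
      have h5 : y''.n = n := by simpa using hy''
      rw [if_pos h5, hc y y' y'' h1 h2 h5]
      push_cast
      ring
    rw [h4]
    have h5 : (D : ℝ) * wrap (RR n) y.x y'.x * (tipLam (RR n) t - m) =
        (D * tipLam (RR n) t * zeta (RR n) y.x x + -(D * tipLam (RR n) t * zeta (RR n) y'.x x)) +
          ((-(D * wrap (RR n) y.x y'.x * m) : ℤ) : ℝ) := by
      push_cast
      rw [← h3]
      ring
    rw [h5, ec_add, ec_int, mul_one]
  · rintro ⟨x, t⟩
    rw [Finset.sum_coe_sort I fun d => star (V d (x, t)) * V d (x, t),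
      tip_sum_range hs hI _ fun d hd' => by simp [hV0 d hd']]
    simp only [hV, tipSec_sq]
    rw [← Complex.ofReal_sum, tip_sum_wt, Complex.ofReal_one]
  · intro a
    by_cases ha : a.1 ∈ Set.range s
    · obtain ⟨y, hy⟩ := ha
      simp only [← hy, hV]
      exact tipSec_twisted n D y
    · intro x
      simp [hV0 _ ha]

end Vale.Agent.P212
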