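import Vale.Agent.P212.Defs4
import Vale.Agent.P212.Vanish
import Vale.Agent.P212.SpaceFib
import Vale.Agent.P212.Cocycle
import Vale.Agent.P212.Tip

noncomputable section

open Classical Filter

namespace Vale.Agent.P212

theorem not_ratInjective {M N V : Type} [AddCommGroup M] [AddCommGroup N] [AddCommGroup V]
    [Module ℚ V] (φ : AbHom M N) (χ : M →+ V) (a : M) (h0 : φ a = 0) (h1 : χ a ≠ 0) :
    ¬ RatInjective φ := by
  intro h
  have h2 : (a ⊗ₜ[ℤ] (1 : ℚ)) = 0 := by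
    apply h
    simp [h0]
  let β : M →ₗ[ℤ] ℚ →ₗ[ℤ] V := LinearMap.mk₂ ℤ (fun m q => q • χ m)
    (fun m m' q => by simp) (fun c m q => by simp [smul_comm c q])
    (fun m q q' => by simp [add_smul]) (fun c m q => by rw [smul_assoc])
  have h3 := congrArg (TensorProduct.lift β) h2
  simp [β] at h3
  exact h1 h3

variable {X H : Type} [PseudoEMetricSpace X] [BddGeom X] [NormedAddCommGroup H]
  [InnerProductSpace ℂ H] [CompleteSpace H]

theorem Cycle0.Unitary.push {Ω Ω' : Type} [TopologicalSpace Ω] [TopologicalSpace Ω']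
    (g : CocompactMap Ω Ω') {x z : Cycle0 Ω H} (h : Cycle0.Unitary x z) :
    Cycle0.Unitary (x.push g) (z.push g) := by
  obtain ⟨u, h1, h2, h3⟩ := h
  exact ⟨u, h1, h2, fun _ => h3.rep _, h3.grading, h3.op⟩

theorem Cycle0.IsSum.push {Ω Ω' : Type} [TopologicalSpace Ω] [TopologicalSpace Ω']
    (g : CocompactMap Ω Ω') {z x y : Cycle0 Ω H} (h : Cycle0.IsSum z x y) :
    Cycle0.IsSum (z.push g) (x.push g) (y.push g) := by
  obtain ⟨s, t, h1, h2, h3, h4, h5⟩ := h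
  exact ⟨s, t, h1, h2, h3, ⟨fun _ => h4.rep _, h4.grading, h4.op⟩,
    ⟨fun _ => h5.rep _, h5.grading, h5.op⟩⟩

theorem Cycle0.Homotopic.push {Ω Ω' : Type} [TopologicalSpace Ω] [TopologicalSpace Ω']
    (g : CocompactMap Ω Ω') {x z : Cycle0 Ω H} (h : Cycle0.Homotopic x z) :
    Cycle0.Homotopic (x.push g) (z.push g) := by
  obtain ⟨h1, h2, F, h3, h4, h5, h6⟩ := h
  refine ⟨congrArg (fun π : C0Rep Ω H => π.comp (isStarHom_precomp g).toHom) h1, h2, F, h3, h4, h5,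
    fun s => ?_⟩
  exact (FMod.comap (isStarHom_precomp g).toHom (⟨x.π, x.γ, F s, h6 s⟩ : Cycle0 Ω H)).fredholm

/-- The pairing of a generator with an idempotent at scale `r`. -/
def pairGen (ξ₀ : H) (h : ‖ξ₀‖ = 1) {I : Type} [Fintype I] [DecidableEq I] {r : ℕ}
    (p : Matrix I I (C0 (Rips X r))) (g : Gen X H) : ℂ :=
  if hr : g.1 ≤ r then pair ξ₀ h (Cycle0.push (ripsIncl hr) g.2) p else 0

theorem pairGen_mk (ξ₀ : H) (h : ‖ξ₀‖ = 1) {I : Type} [Fintype I] [DecidableEq I] {r r' : ℕ}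
    (p : Matrix I I (C0 (Rips X r))) (hr : r' ≤ r) (z : Cycle0 (Rips X r') H) :
    pairGen ξ₀ h p ⟨r', z⟩ = pair ξ₀ h (Cycle0.push (ripsIncl hr) z) p := dif_pos hr

theorem exists_detect (ξ₀ : H) (h : ‖ξ₀‖ = 1) (I : ℕ → Finset X)
    (p : ∀ r, Matrix (I r) (I r) (C0 (Rips X r))) (hp : ∀ r, p r * p r = p r) :
    ∃ χ : KX0 X H →+ Germ (atTop : Filter ℕ) ℂ, ∀ g : Gen X H,
      χ (QuotientAddGroup.mk (FreeAbelianGroup.of g)) =
        ((fun r => pairGen ξ₀ h (p r) g : ℕ → ℂ) : Germ atTop ℂ) := by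
  have key : Respects (fun g : Gen X H => ((fun r => pairGen ξ₀ h (p r) g : ℕ → ℂ) :
      Germ (atTop : Filter ℕ) ℂ)) {w | KRel X H w} := by
    rw [Respects, AddSubgroup.closure_le]
    rintro _ (⟨r, x, z, hx⟩ | ⟨r, x, z, hx⟩ | ⟨r, z, x, y, hx⟩ | ⟨r, r', hr, z⟩)
    · simp only [SetLike.mem_coe, AddMonoidHom.mem_ker, map_sub, lift_gen, sub_eq_zero,
        Germ.coe_eq]
      filter_upwards [eventually_ge_atTop r] with R hR
      rw [pairGen_mk _ _ _ hR, pairGen_mk _ _ _ hR]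
      exact pair_unitary ξ₀ h (hx.push _) (hp R)
    · simp only [SetLike.mem_coe, AddMonoidHom.mem_ker, map_sub, lift_gen, sub_eq_zero,
        Germ.coe_eq]
      filter_upwards [eventually_ge_atTop r] with R hR
      rw [pairGen_mk _ _ _ hR, pairGen_mk _ _ _ hR]
      exact pair_homotopic ξ₀ h (hx.push _) (hp R)
    · simp only [SetLike.mem_coe, AddMonoidHom.mem_ker, map_sub, map_add, lift_gen, sub_eq_zero,
        ← Germ.coe_add, Germ.coe_eq]
      filter_upwards [eventually_ge_atTop r] with R hR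
      rw [Pi.add_apply, pairGen_mk _ _ _ hR, pairGen_mk _ _ _ hR, pairGen_mk _ _ _ hR]
      exact pair_sum ξ₀ h (hx.push _) (hp R)
    · simp only [SetLike.mem_coe, AddMonoidHom.mem_ker, map_sub, lift_gen, sub_eq_zero,
        Germ.coe_eq]
      filter_upwards [eventually_ge_atTop r'] with R hR
      rw [pairGen_mk _ _ _ hR, pairGen_mk _ _ _ (hr.trans hR)]
      rfl
  exact ⟨Presented.lift _ key, fun g => FreeAbelianGroup.lift_apply_of _ _⟩

theorem pair_tip {z : Cycle0 Tor EllTwo} (hz : IsTorusCycle z) (ξ₀ : EllTwo) (h : ‖ξ₀‖ = 1)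
    (s : Ysp → X) (hs : Function.Injective s)
    (hd : ∀ y y', edist y y' ≤ (1 : ℕ) → edist (s y) (s y') ≤ (1 : ℕ)) {r : ℕ} (hr : 1 ≤ r)
    (I : Finset X) (n D : ℕ) (hI : ∀ y, s y ∈ I ↔ y.n = n) (c : X → X → X → ℤ)
    (hc : ∀ y y' y'' : Ysp, y.n = n → y'.n = n → y''.n = n →
      c (s y) (s y') (s y'') = D * wrap (RR n) y.x y'.x * wrap (RR n) y'.y y''.y)
    (hp : lineProj I c r * lineProj I c r = lineProj I c r) :
    pairGen ξ₀ h (lineProj I c r) ⟨1, Cycle0.push (ripsMap s hs hd) (Cycle0.push tipMap z)⟩ =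
      -(D : ℂ) := by
  obtain ⟨v, hv⟩ := exists_section s hs hd hr I n D hI c hc
  rw [pairGen_mk _ _ _ hr]
  exact HasFactor.pair_eq ξ₀ h hp (hz _ n D _ v hv)

theorem not_maxAssemblyRatInjective : ¬ MaxAssemblyRatInjective Xsp EllTwo := by
  obtain ⟨z, hz⟩ := exists_torus_cycle
  obtain ⟨T, c₀, hc₀, hT⟩ := kazhdan_G7
  choose n D c hn hD hc h₀ h₁ using exists_cocycle
  have hp : ∀ r, lineProj (levelX (n r)) (c r) r * lineProj (levelX (n r)) (c r) r =
      lineProj (levelX (n r)) (c r) r := fun r => by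
    refine lineProj_idem (fun a ha b hab => ?_) (hc r)
    rw [mem_levelX] at ha ⊢
    rcases (Xsp.edist_le_iff a b r).1 hab with h | h
    · rw [← ha]; exact (Iter.lv_eq r a b h).symm
    · exact absurd h.1 (by rw [ha]; exact Nat.not_lt.2 (hn r))
  have hξ : ‖(sing 0 1 : EllTwo)‖ = 1 := by rw [norm_sing, norm_one]
  obtain ⟨χ, hχ⟩ := exists_detect (sing 0 1 : EllTwo) hξ (fun r => levelX (n r)) _ hp
  let g₀ : Gen Xsp EllTwo :=
    ⟨1, Cycle0.push (ripsMap tip₀ tip₀_injective (edist_tip₀ 1)) (Cycle0.push tipMap z)⟩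
  let g₁ : Gen Xsp EllTwo :=
    ⟨1, Cycle0.push (ripsMap tip₁ tip₁_injective (edist_tip₁ 1)) (Cycle0.push tipMap z)⟩
  refine not_ratInjective _ χ (QuotientAddGroup.mk (FreeAbelianGroup.of g₀) -
    QuotientAddGroup.mk (FreeAbelianGroup.of g₁)) ?_ ?_
  · have e : ∀ g : Gen Xsp EllTwo, assembly Xsp EllTwo
        (QuotientAddGroup.mk (FreeAbelianGroup.of g)) = maxIndex g :=
      fun g => FreeAbelianGroup.lift_apply_of _ _
    rw [map_sub, e, e, sub_eq_zero]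
    exact maxIndex_tips (L := LY) (fun y y' h => by rw [LY, LY, Ysp.n_eq_of_edist h])
      (fun y => ⟨5 * nu y.n, by rw [LY]; ring⟩) (fun y => by simp [LY, nu]) isFib_Xsp hc₀ hT
      tip₀ tip₁ (fun _ => rfl) (fun _ => rfl) eq_tip₀ eq_tip₁ tip₀_injective tip₁_injective
      edist_tip₀ edist_tip₁ _
  · rw [map_sub, hχ, hχ, sub_ne_zero, Ne, Germ.coe_eq]
    intro h
    obtain ⟨r, hr, h1⟩ := (h.and (eventually_ge_atTop 1)).exists
    have e₀ := pair_tip hz _ hξ tip₀ tip₀_injective (edist_tip₀ 1) h1 _ (n r) (D r)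
      (fun y => mem_levelX) _ (h₀ r) (hp r)
    have e₁ := pair_tip hz _ hξ tip₁ tip₁_injective (edist_tip₁ 1) h1 _ (n r) 0
      (fun y => mem_levelX) _ (fun y y' y'' a b d => by simp [h₁ r y y' y'' a b d]) (hp r)
    exact (hD r).ne' (by simpa using e₀.symm.trans (hr.trans e₁))

theorem main : ∃ (X : Type) (_ : MetricSpace X) (_ : BddGeom X),
    (∃ δ : ℝ, 0 < δ ∧ ∀ x y : X, x ≠ y → δ ≤ dist x y) ∧ ¬ MaxAssemblyRatInjective X EllTwo :=
  ⟨Xsp, inferInstance, Xsp.bddGeom, ⟨1, one_pos, fun _ _ => Xsp.one_le_dist⟩,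
    not_maxAssemblyRatInjective⟩

end Vale.Agent.P212
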